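import Mathlib

/-! Functors from the fundamental groupoid to a group, in unbundled form. -/

set_option autoImplicit false

open Set unitInterval Topology Filter

namespace Crest.Agent.Lib.CWComb

/-- a multiplicative, homotopy invariant function of paths with values in a group -/
structure PathFun (B : Type*) [TopologicalSpace B] (K : Type*) [Group K] where
  val : ∀ {x y : B}, Path x y → K
  val_trans : ∀ {x y z : B} (p : Path x y) (q : Path y z), val (p.trans q) = val p * val q
  val_hom : ∀ {x y : B} {p q : Path x y}, p.Homotopic q → val p = val q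

namespace PathFun

variable {B B' K K' : Type*} [TopologicalSpace B] [TopologicalSpace B'] [Group K] [Group K']

theorem congr (κ : PathFun B K) {x y x' y' : B} (p : Path x y) (q : Path x' y')
    (h : ∀ s, p s = q s) : κ.val p = κ.val q := by
  have hx : x = x' := by rw [← p.source, h, q.source]
  have hy : y = y' := by rw [← p.target, h, q.target]
  subst hx hy
  have : p = q := by ext s; exact h s
  rw [this]

theorem val_refl (κ : PathFun B K) (x : B) : κ.val (Path.refl x) = 1 := by
  have h := κ.val_trans (Path.refl x) (Path.refl x)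
  rw [Path.refl_trans_refl] at h
  exact (left_eq_mul.mp h)

theorem val_const (κ : PathFun B K) {x y : B} (p : Path x y) (h : ∀ s, p s = x) : κ.val p = 1 :=
  (κ.congr p (Path.refl x) h).trans (κ.val_refl x)

theorem val_symm (κ : PathFun B K) {x y : B} (p : Path x y) : κ.val p.symm = (κ.val p)⁻¹ := by
  have h := κ.val_hom (⟨Path.Homotopy.reflTransSymm p⟩ : (Path.refl x).Homotopic (p.trans p.symm))
  rw [val_refl, val_trans] at h
  exact eq_inv_of_mul_eq_one_right h.symm

/-- pull back along a continuous map -/
def comap (κ : PathFun B K) (f : C(B', B)) : PathFun B' K where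
  val p := κ.val (p.map f.continuous)
  val_trans p q := by rw [Path.map_trans, κ.val_trans]
  val_hom h := κ.val_hom (h.map f)

@[simp] theorem comap_val (κ : PathFun B K) (f : C(B', B)) {x y : B'} (p : Path x y) :
    (κ.comap f).val p = κ.val (p.map f.continuous) := rfl

/-- push forward along a group homomorphism -/
def map (κ : PathFun B K) (φ : K →* K') : PathFun B K' where
  val p := φ (κ.val p)
  val_trans p q := by rw [κ.val_trans, map_mul]
  val_hom h := by rw [κ.val_hom h]

@[simp] theorem map_val (κ : PathFun B K) (φ : K →* K') {x y : B} (p : Path x y) :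
    (κ.map φ).val p = φ (κ.val p) := rfl

/-- change of gauge -/
def twist (κ : PathFun B K) (β : B → K) : PathFun B K where
  val {x y} p := β x * κ.val p * (β y)⁻¹
  val_trans p q := by rw [κ.val_trans]; group
  val_hom h := by rw [κ.val_hom h]

@[simp] theorem twist_val (κ : PathFun B K) (β : B → K) {x y : B} (p : Path x y) :
    (κ.twist β).val p = β x * κ.val p * (β y)⁻¹ := rfl

/-- on a simply connected space a path function only depends on the end points -/
theorem exists_potential [SimplyConnectedSpace B] (κ : PathFun B K) (b : B) :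
    ∃ f : B → K, f b = 1 ∧ ∀ x y (p : Path x y), κ.val p = f x * (f y)⁻¹ := by
  refine ⟨fun x => κ.val (PathConnectedSpace.somePath x b), ?_, fun x y p => ?_⟩
  · exact (κ.val_hom (SimplyConnectedSpace.paths_homotopic _ _)).trans (κ.val_refl b)
  · rw [eq_mul_inv_iff_mul_eq, ← κ.val_trans]
    exact κ.val_hom (SimplyConnectedSpace.paths_homotopic _ _)

theorem val_eq_of_simplyConnected [SimplyConnectedSpace B] (κ : PathFun B K) {x y : B}
    (p q : Path x y) : κ.val p = κ.val q :=
  κ.val_hom (SimplyConnectedSpace.paths_homotopic _ _)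

theorem val_evalAt (κ : PathFun B K) {f g : C(B', B)} (H : f.Homotopy g) {x y : B'}
    (p : Path x y) : κ.val (p.map f.continuous) =
      κ.val (H.evalAt x) * κ.val (p.map g.continuous) * (κ.val (H.evalAt y))⁻¹ := by
  rw [eq_mul_inv_iff_mul_eq, ← κ.val_trans, ← κ.val_trans]
  exact κ.val_hom (Path.Homotopic.map_trans_evalAt H p)

end PathFun

/-- induction over paths: small paths, concatenation, homotopy -/
theorem path_induction {B ι : Type*} [TopologicalSpace B] (O : ι → Set B) (hO : ∀ i, IsOpen (O i))
    (hc : ∀ x, ∃ i, x ∈ O i) (P : ∀ {x y : B}, Path x y → Prop)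
    (htrans : ∀ {x y z : B} (p : Path x y) (q : Path y z), P p → P q → P (p.trans q))
    (hhom : ∀ {x y : B} {p q : Path x y}, p.Homotopic q → P p → P q)
    (hsmall : ∀ i {x y : B} (p : Path x y), (∀ s, p s ∈ O i) → P p)
    {x y : B} (p : Path x y) : P p := by
  obtain ⟨t, t0, tmono, ⟨n, hn⟩, hsub⟩ := exists_monotone_Icc_subset_open_cover_unitInterval
    (c := fun i => p ⁻¹' O i) (fun i => (hO i).preimage p.continuous)
    (fun s _ => mem_iUnion.2 (hc (p s)))
  have key : ∀ k, P (p.subpath 0 (t k)) := by
    intro k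
    induction k with
    | zero =>
      obtain ⟨i, hi⟩ := hc (p 0)
      refine hsmall i _ fun s => ?_
      have : p.subpath 0 (t 0) s ∈ range (p.subpath 0 (t 0)) := mem_range_self s
      rw [Path.range_subpath, t0, uIcc_self, image_singleton, mem_singleton_iff] at this
      rw [t0, this]; exact hi
    | succ k ih =>
      obtain ⟨i, hi⟩ := hsub k
      refine hhom ⟨Path.Homotopy.subpathTransSubpath p 0 (t k) (t (k + 1))⟩
        (htrans _ _ ih (hsmall i _ fun s => ?_))
      have : p.subpath (t k) (t (k + 1)) s ∈ range (p.subpath (t k) (t (k + 1))) := mem_range_self s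
      rw [Path.range_subpath_of_le _ _ _ (tmono (Nat.le_succ k))] at this
      obtain ⟨u, hu, hu'⟩ := this
      rw [← hu']; exact hi hu
  have h1 := key n
  have hcast : ∀ {x' y' : B} (q : Path x' y'), (∀ s, q s = p s) → P q → P p := by
    intro x' y' q h hq
    have hx : x' = x := by rw [← q.source, h, p.source]
    have hy : y' = y := by rw [← q.target, h, p.target]
    subst hx hy
    have : q = p := by ext s; exact h s
    rwa [this] at hq
  refine hcast _ (fun s => ?_) h1
  have e : p.subpath 0 (t n) s = p.subpath 0 1 s := by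
    have := hn n le_rfl
    simp only [Path.subpath, Path.coe_mk_mk, Function.comp_apply, this]
  rw [e, Path.subpath_zero_one]; rfl

theorem PathFun.eq_of_cover {B ι K : Type*} [TopologicalSpace B] [Group K] (O : ι → Set B)
    (hO : ∀ i, IsOpen (O i)) (hc : ∀ x, ∃ i, x ∈ O i) (κ κ' : PathFun B K)
    (hsmall : ∀ i {x y : B} (p : Path x y), (∀ s, p s ∈ O i) → κ.val p = κ'.val p)
    {x y : B} (p : Path x y) : κ.val p = κ'.val p :=
  path_induction O hO hc (fun p => κ.val p = κ'.val p)
    (fun p q hp hq => by rw [κ.val_trans, κ'.val_trans, hp, hq])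
    (fun h hp => by rw [← κ.val_hom h, ← κ'.val_hom h, hp]) hsmall p

/-- A locally constant Čech cocycle `(t i)⁻¹ * t j` gives a path function. -/
theorem exists_pathFun_of_cocycle {B ι K : Type*} [TopologicalSpace B] [Group K] (O : ι → Set B)
    (hO : ∀ i, IsOpen (O i)) (hc : ∀ x, ∃ i, x ∈ O i) (t : ι → B → K)
    (ht : ∀ i j x, x ∈ O i → x ∈ O j → ∀ᶠ y in 𝓝 x, (t i y)⁻¹ * t j y = (t i x)⁻¹ * t j x) :
    ∃ μ : PathFun B K, ∀ i {x y : B} (p : Path x y), (∀ s, p s ∈ O i) →
      μ.val p = t i x * (t i y)⁻¹ := by
  let _ : TopologicalSpace K := ⊥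
  have : DiscreteTopology K := ⟨rfl⟩
  choose idx hidx using hc
  let Z : FiberBundleCore ι B K :=
    { baseSet := O
      isOpen_baseSet := hO
      indexAt := idx
      mem_baseSet_at := hidx
      coordChange := fun i j x k => k * ((t i x)⁻¹ * t j x)
      coordChange_self := fun i x _ k => by simp
      continuousOn_coordChange := fun i j => by
        rintro ⟨x, k⟩ ⟨⟨hi, hj⟩, -⟩
        refine ContinuousAt.continuousWithinAt ?_
        have h1 : ∀ᶠ q : B × K in 𝓝 (x, k), (t i q.1)⁻¹ * t j q.1 = (t i x)⁻¹ * t j x :=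
          (continuousAt_fst (p := (x, k))).eventually (ht i j x hi hj)
        have h2 : ∀ᶠ q : B × K in 𝓝 (x, k), q.2 = k :=
          continuousAt_snd.eventually (p := fun k' => k' = k) (by simp [nhds_discrete])
        refine continuousAt_const.congr (f := fun _ => k * ((t i x)⁻¹ * t j x)) ?_
        filter_upwards [h1, h2] with q h1 h2
        rw [h1, h2]
      coordChange_comp := fun i j l x _ k => by group }
  have cov : IsCoveringMap Z.proj := IsFiberBundle.isCoveringMap fun x =>
    ⟨Z.localTrivAt x, Z.mem_localTrivAt_baseSet x⟩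
  let pt : B → K → Z.TotalSpace := fun x k => ⟨x, k * t (idx x) x⟩
  let ab : Z.TotalSpace → K := fun e => (show K from e.2) * (t (idx e.1) e.1)⁻¹
  have pt_ab : ∀ e : Z.TotalSpace, pt e.1 (ab e) = e := by
    rintro ⟨x, k⟩
    exact congrArg (Bundle.TotalSpace.mk x) (inv_mul_cancel_right (G := K) k _)
  have ab_pt : ∀ x k, ab (pt x k) = k := fun x k => by simp only [pt, ab, mul_inv_cancel_right]
  let M : ∀ {x y : B}, Path x y → K → K := fun {x y} p k =>
    ab (cov.monodromy (Path.Homotopic.Quotient.mk p) ⟨pt x k, rfl⟩).1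
  have hMt : ∀ {x y z : B} (p : Path x y) (q : Path y z) k, M (p.trans q) k = M q (M p k) := by
    intro x y z p q k
    simp only [M]
    rw [Path.Homotopic.Quotient.mk_trans, cov.monodromy_trans_apply]
    congr 3
    set e := cov.monodromy (Path.Homotopic.Quotient.mk p) ⟨pt x k, rfl⟩
    have he : e.1.1 = y := e.2
    apply Subtype.ext
    change e.1 = pt y (ab e.1)
    exact (pt_ab e.1).symm.trans (congrArg (fun y => pt y (ab e.1)) he)
  have hMh : ∀ {x y : B} {p q : Path x y}, p.Homotopic q → M p = M q := by
    intro x y p q h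
    funext k
    simp only [M]
    rw [Path.Homotopic.Quotient.eq.2 h]
  have hMs : ∀ i {x y : B} (p : Path x y), (∀ s, p s ∈ O i) → ∀ k,
      M p k = k * (t i x * (t i y)⁻¹) := by
    intro i x y p hp k
    let Γ : I → Z.TotalSpace := fun s => (Z.localTriv i).toOpenPartialHomeomorph.symm (p s, k * t i x)
    have hΓ : Continuous Γ := by
      refine (Z.localTriv i).continuousOn_invFun.comp_continuous
        (p.continuous.prodMk continuous_const) fun s => ?_
      exact (Z.mem_localTriv_target i _).2 (hp s)
    have hΓ' : ∀ s, Γ s = pt (p s) (k * (t i x * (t i (p s))⁻¹)) := by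
      intro s
      simp only [Γ, FiberBundleCore.localTriv_symm_apply, pt, Z]
      refine congrArg (Bundle.TotalSpace.mk (p s)) ?_
      change k * t i x * ((t i (p s))⁻¹ * t (idx (p s)) (p s)) =
        k * (t i x * (t i (p s))⁻¹) * t (idx (p s)) (p s)
      simp only [mul_assoc]
    have h0 : Γ 0 = pt x k := by rw [hΓ', p.source]; simp
    have hl : Γ = cov.liftPath (p : C(I, B)) (pt x k) p.source :=
      (cov.eq_liftPath_iff _).2 ⟨hΓ, funext fun s => by rw [Function.comp_apply, hΓ']; rfl, h0⟩
    change ab (cov.liftPath (p : C(I, B)) (pt x k) _ 1) = _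
    rw [← hl, hΓ', ab_pt, p.target]
  have hMr : ∀ {x y : B} (p : Path x y), ∀ k, M p k = k * M p 1 := by
    intro x y p
    refine path_induction O hO (fun x => ⟨idx x, hidx x⟩) (fun p => ∀ k, M p k = k * M p 1)
      (fun p q hp hq k => ?_) (fun h hp => hMh h ▸ hp) (fun i _ _ p hp k => ?_) p
    · rw [hMt, hMt, hq, hq (M p 1), hp, mul_assoc]
    · rw [hMs i p hp, hMs i p hp, one_mul]
  refine ⟨⟨fun p => M p 1, fun p q => ?_, fun h => by rw [hMh h]⟩, fun i _ _ p hp => ?_⟩
  · rw [hMt, hMr]
  · change M p 1 = _
    rw [hMs i p hp, one_mul]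

end Crest.Agent.Lib.CWComb
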