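import Crest.Agent.Lib.CWComb.Defs
import Crest.Agent.Lib.CWComb.PathFun

/-! Labelling the points of a regular covering by group elements. -/

set_option autoImplicit false

open Set unitInterval Topology Filter CategoryTheory

namespace Crest.Agent.Lib.CWComb

/-- A labelling of the points of a covering space by the elements of a group `G`. -/
structure Lab {E B : Type} [TopologicalSpace E] [TopologicalSpace B] (p : E → B) (G : Type)
    [Group G] where
  ν : PathFun B G
  ℓ : E → G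
  val_lift : ∀ {e e' : E} (q' : Path e e') {x y : B} (q : Path x y), (∀ u, p (q' u) = q u) →
    ν.val q = (ℓ e)⁻¹ * ℓ e'
  inj : ∀ e e', p e = p e' → ℓ e = ℓ e' → e = e'
  surj : ∀ x g, ∃ e, p e = x ∧ ℓ e = g

variable {E B : Type} [TopologicalSpace E] [TopologicalSpace B] {p : E → B} {G : Type} [Group G]

theorem exists_lift_path (cov : IsCoveringMap p) {x y : B} (q : Path x y) (e : E) (he : p e = x) :
    ∃ (e' : E) (q' : Path e e'), ∀ u, p (q' u) = q u := by
  obtain ⟨Γ, h1, h2⟩ := cov.exists_path_lifts (q : C(I, B)) e (q.source.trans he.symm)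
  exact ⟨Γ 1, ⟨Γ, h2, rfl⟩, fun u => congrFun h1 u⟩

theorem lift_unique (cov : IsCoveringMap p) {e e₁ e₂ : E} (q₁ : Path e e₁) (q₂ : Path e e₂)
    (h : ∀ u, p (q₁ u) = p (q₂ u)) (u : I) : q₁ u = q₂ u :=
  congrFun (cov.eq_of_comp_eq q₁.continuous q₂.continuous (funext h) 0 (by simp)) u

theorem lift_homotopic (cov : IsCoveringMap p) {x y : B} {q₁ q₂ : Path x y} (h : q₁.Homotopic q₂)
    {e e₁ : E} (q₁' : Path e e₁) (h₁ : ∀ u, p (q₁' u) = q₁ u) :
    ∃ q₂' : Path e e₁, (∀ u, p (q₂' u) = q₂ u) ∧ q₁'.Homotopic q₂' := by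
  have he : p e = x := by rw [← q₁'.source, h₁, q₁.source]
  have h01 : (q₁ : C(I, B)) 0 = p e := q₁.source.trans he.symm
  have h02 : (q₂ : C(I, B)) 0 = p e := q₂.source.trans he.symm
  have e1 : q₁'.toContinuousMap = cov.liftPath q₁.toContinuousMap e h01 :=
    (cov.eq_liftPath_iff' h01).2 ⟨funext h₁, q₁'.source⟩
  have hend := cov.liftPath_apply_one_eq_of_homotopicRel h e h01 h02
  have hh := cov.homotopicRel_liftPath h e h01 h02
  rw [← e1] at hend hh
  exact ⟨⟨cov.liftPath (q₂ : C(I, B)) e h02, cov.liftPath_zero _ _ _, hend.symm.trans q₁'.target⟩,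
    fun u => congrFun (cov.liftPath_lifts _ _ h02) u, hh⟩

namespace Lab

variable (L : Lab p G)

/-- change of gauge -/
def twist (β : B → G) : Lab p G where
  ν := L.ν.twist β
  ℓ e := L.ℓ e * (β (p e))⁻¹
  val_lift {e e'} q' {x y} q h := by
    have hx : p e = x := by rw [← q'.source, h, q.source]
    have hy : p e' = y := by rw [← q'.target, h, q.target]
    rw [PathFun.twist_val, L.val_lift q' q h, hx, hy]
    group
  inj e e' h h' := L.inj e e' h (by rwa [h, mul_left_inj] at h')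
  surj x g := by
    obtain ⟨e, he, h⟩ := L.surj x (g * β x)
    exact ⟨e, he, by simp [he, h]⟩

/-- restriction to a subspace -/
def restrict (S : Set B) : Lab (S.restrictPreimage p) G where
  ν := L.ν.comap ⟨Subtype.val, continuous_subtype_val⟩
  ℓ e := L.ℓ e
  val_lift q' _ _ _ h :=
    L.val_lift (q'.map continuous_subtype_val) _ fun u => congrArg Subtype.val (h u)
  inj e e' h h' := Subtype.ext (L.inj e e' (congrArg Subtype.val h) h')
  surj x g := by
    obtain ⟨e, he, h⟩ := L.surj x g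
    exact ⟨⟨e, by rw [mem_preimage, he]; exact x.2⟩, Subtype.ext he, h⟩

theorem exists_path [PathConnectedSpace E] (hp : Continuous p) (x y : B) (g : G) :
    ∃ q : Path x y, L.ν.val q = g := by
  obtain ⟨e, rfl, h⟩ := L.surj x 1
  obtain ⟨e', rfl, h'⟩ := L.surj y g
  refine ⟨(PathConnectedSpace.somePath e e').map hp, ?_⟩
  rw [L.val_lift (PathConnectedSpace.somePath e e') _ fun u => rfl, h, h']
  simp

theorem homotopic_of_val_eq [SimplyConnectedSpace E] (cov : IsCoveringMap p) {x y : B}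
    (q₁ q₂ : Path x y) (h : L.ν.val q₁ = L.ν.val q₂) : q₁.Homotopic q₂ := by
  obtain ⟨e, rfl, -⟩ := L.surj x 1
  obtain ⟨e₁, q₁', h₁⟩ := exists_lift_path cov q₁ e rfl
  obtain ⟨e₂, q₂', h₂⟩ := exists_lift_path cov q₂ e rfl
  have hy₁ : p e₁ = y := by rw [← q₁'.target, h₁, q₁.target]
  have hy₂ : p e₂ = y := by rw [← q₂'.target, h₂, q₂.target]
  rw [L.val_lift q₁' q₁ h₁, L.val_lift q₂' q₂ h₂, mul_right_inj] at h
  obtain rfl := L.inj e₁ e₂ (hy₁.trans hy₂.symm) h
  subst hy₁
  have := (SimplyConnectedSpace.paths_homotopic q₁' q₂').map ⟨p, cov.continuous⟩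
  have e1 : q₁'.map cov.continuous = q₁ := by ext u; exact h₁ u
  have e2 : q₂'.map cov.continuous = q₂ := by ext u; exact h₂ u
  rw [← e1, ← e2]
  exact this

/-- transfer of a path function from the total space to the base -/
theorem exists_transfer (cov : IsCoveringMap p) {K : Type*} [Group K] (κ : PathFun E K) :
    ∃ κ' : PathFun B (Wr G K), (∀ {x y : B} (q : Path x y), (κ'.val q).a = L.ν.val q) ∧
      ∀ {e e' : E} (q' : Path e e') {x y : B} (q : Path x y), (∀ u, p (q' u) = q u) →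
        (κ'.val q).f (L.ℓ e) = κ.val q' := by
  have h : ∀ {x y : B} (q : Path x y) (g : G), ∃ k : K, ∀ {e e' : E} (q' : Path e e'),
      (∀ u, p (q' u) = q u) → L.ℓ e = g → k = κ.val q' := by
    intro x y q g
    obtain ⟨e₀, he₀, hg⟩ := L.surj x g
    obtain ⟨e₁, q₀, hq₀⟩ := exists_lift_path cov q e₀ he₀
    refine ⟨κ.val q₀, fun {e e'} q' hq' hl => ?_⟩
    have hx : p e = x := by rw [← q'.source, hq', q.source]
    obtain rfl := L.inj e₀ e (he₀.trans hx.symm) (hg.trans hl.symm)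
    exact κ.congr _ _ (lift_unique cov q₀ q' fun u => (hq₀ u).trans (hq' u).symm)
  choose F hF using @h
  refine ⟨⟨fun q => ⟨F q, L.ν.val q⟩, fun {x y z} q₁ q₂ => ?_, fun {x y q₁ q₂} hq => ?_⟩,
    fun q => rfl, fun q' _ _ q hq => hF q _ q' hq rfl⟩
  · refine Wr.ext (funext fun g => ?_) (L.ν.val_trans q₁ q₂)
    obtain ⟨e₀, he₀, hg⟩ := L.surj x g
    obtain ⟨e₁, q₁', h₁⟩ := exists_lift_path cov q₁ e₀ he₀
    have hy : p e₁ = y := by rw [← q₁'.target, h₁, q₁.target]
    obtain ⟨e₂, q₂', h₂⟩ := exists_lift_path cov q₂ e₁ hy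
    change F (q₁.trans q₂) g = F q₁ g * F q₂ (g * L.ν.val q₁)
    rw [hF q₁ g q₁' h₁ hg, hF q₂ _ q₂' h₂ (by rw [L.val_lift q₁' q₁ h₁, hg]; group),
      hF (q₁.trans q₂) g (q₁'.trans q₂') (fun u => ?_) hg, κ.val_trans]
    simp only [Path.trans_apply]
    split_ifs
    exacts [h₁ _, h₂ _]
  · refine Wr.ext (funext fun g => ?_) (L.ν.val_hom hq)
    obtain ⟨e₀, he₀, hg⟩ := L.surj x g
    obtain ⟨e₁, q₁', h₁⟩ := exists_lift_path cov q₁ e₀ he₀
    obtain ⟨q₂', h₂, hh⟩ := lift_homotopic cov hq q₁' h₁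
    change F q₁ g = F q₂ g
    rw [hF q₁ g q₁' h₁ hg, hF q₂ g q₂' h₂ hg, κ.val_hom hh]

end Lab

local notation "pt" => FundamentalGroupoid.mk

theorem nonempty_lab [SimplyConnectedSpace E] (cov : IsCoveringMap p) (hs : Function.Surjective p)
    (x₀ : B) (φ : FundamentalGroup B x₀ ≃* G) : Nonempty (Lab p G) := by
  have : PathConnectedSpace B := hs.pathConnectedSpace cov.continuous
  let c : ∀ x : B, pt x₀ ⟶ pt x := fun x =>
    Path.Homotopic.Quotient.mk (PathConnectedSpace.somePath x₀ x)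
  let m : ∀ {x y : B}, Path x y → (pt x ⟶ pt y) := fun q => Path.Homotopic.Quotient.mk q
  let lp : ∀ {x y : B}, (pt x ⟶ pt y) → FundamentalGroup B x₀ := fun {x y} a =>
    c x ≫ a ≫ inv (c y)
  let ν : PathFun B G :=
    { val := fun q => (φ (lp (m q)))⁻¹
      val_trans := fun {x y z} q₁ q₂ => by
        rw [← mul_inv_rev, ← map_mul]
        congr 2
        have : m (q₁.trans q₂) = m q₁ ≫ m q₂ := rfl
        change _ = lp (m q₁) ≫ lp (m q₂)
        simp only [lp, this, Category.assoc, IsIso.inv_hom_id_assoc]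
      val_hom := fun h => by simp only [m, Path.Homotopic.Quotient.eq.2 h] }
  obtain ⟨e₀⟩ : Nonempty E := inferInstance
  obtain ⟨f, hf0, hf⟩ := (ν.comap ⟨p, cov.continuous⟩).exists_potential e₀
  have hval : ∀ {e e' : E} (q' : Path e e') {x y : B} (q : Path x y), (∀ u, p (q' u) = q u) →
      ν.val q = ((f e)⁻¹)⁻¹ * (f e')⁻¹ := by
    intro e e' q' x y q h
    rw [inv_inv, ← hf e e' q', PathFun.comap_val]
    exact ν.congr _ _ fun u => (h u).symm
  refine ⟨⟨ν, fun e => (f e)⁻¹, hval, fun e e' h h' => ?_, fun x g => ?_⟩⟩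
  · let q' := PathConnectedSpace.somePath e e'
    let q : Path (p e) (p e) := (q'.map cov.continuous).cast rfl h
    have h1 : ν.val q = 1 := by rw [hval q' q fun u => rfl, h']; simp
    have h2 : lp (m q) = 1 := by
      change (φ (lp (m q)))⁻¹ = 1 at h1
      rwa [inv_eq_one, map_eq_one_iff _ φ.injective] at h1
    have h3 : m q = 𝟙 _ := by
      change c (p e) ≫ m q ≫ inv (c (p e)) = 𝟙 _ at h2
      rw [← Category.assoc, IsIso.comp_inv_eq, Category.id_comp] at h2
      rw [← cancel_epi (c (p e)), h2, Category.comp_id]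
    have h4 : q.Homotopic (Path.refl _) := Path.Homotopic.Quotient.eq.1 h3
    obtain ⟨q₂, hq₂, -⟩ := lift_homotopic cov h4 q' fun u => rfl
    have := lift_unique cov (Path.refl e) q₂ (fun u => (hq₂ u).symm) 1
    simpa using this
  · obtain ⟨q, hq⟩ := Path.Homotopic.Quotient.mk_surjective
      (inv (c (p e₀)) ≫ (φ.symm g⁻¹ : pt x₀ ⟶ pt x₀) ≫ c x : pt (p e₀) ⟶ pt x)
    obtain ⟨e, q', hq'⟩ := exists_lift_path cov q e₀ rfl
    refine ⟨e, by rw [← q'.target, hq', q.target], ?_⟩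
    have h1 := hval q' q hq'
    rw [hf0, inv_inv, one_mul] at h1
    rw [← h1]
    change (φ (lp (m q)))⁻¹ = g
    have : lp (m q) = φ.symm g⁻¹ := by
      have e1 : m q = inv (c (p e₀)) ≫ (φ.symm g⁻¹ : pt x₀ ⟶ pt x₀) ≫ c x := hq
      change (c (p e₀) ≫ m q ≫ inv (c x) : pt x₀ ⟶ pt x₀) = _
      rw [e1]
      simp
    rw [this]
    simp

end Crest.Agent.Lib.CWComb
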