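import Mathlib

/-! Holonomy of group-valued edge labellings of a Cayley graph along words of a free group.

`hol π y g w` is the ordered product of the labels `y (vertex) (generator)` met along the path in
the Cayley graph of `G` (with respect to `π : S → G`, edges `g → g * π s`) that starts at `g` and
reads the word `w`. -/

set_option autoImplicit false

namespace Crest.Agent.Lib.CWComb

/-- The (unrestricted, right-regular) wreath product used to define holonomy. -/
@[ext] structure Wr (G K : Type*) where
  f : G → K
  a : G

namespace Wr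

variable {G K : Type*} [Group G] [Group K]

instance : Mul (Wr G K) := ⟨fun x y => ⟨fun g => x.f g * y.f (g * x.a), x.a * y.a⟩⟩
instance : One (Wr G K) := ⟨⟨fun _ => 1, 1⟩⟩
instance : Inv (Wr G K) := ⟨fun x => ⟨fun g => (x.f (g * x.a⁻¹))⁻¹, x.a⁻¹⟩⟩

@[simp] theorem mul_f (x y : Wr G K) (g : G) : (x * y).f g = x.f g * y.f (g * x.a) := rfl
@[simp] theorem mul_a (x y : Wr G K) : (x * y).a = x.a * y.a := rfl
@[simp] theorem one_f (g : G) : (1 : Wr G K).f g = 1 := rfl
@[simp] theorem one_a : (1 : Wr G K).a = 1 := rfl
@[simp] theorem inv_f (x : Wr G K) (g : G) : (x⁻¹).f g = (x.f (g * x.a⁻¹))⁻¹ := rfl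
@[simp] theorem inv_a (x : Wr G K) : (x⁻¹).a = x.a⁻¹ := rfl

instance : Group (Wr G K) where
  mul_assoc x y z := by ext <;> simp [mul_assoc]
  one_mul x := by ext <;> simp
  mul_one x := by ext <;> simp
  inv_mul_cancel x := by ext <;> simp

/-- the projection to `G` -/
def proj : Wr G K →* G where
  toFun := Wr.a
  map_one' := rfl
  map_mul' _ _ := rfl

@[simp] theorem proj_apply (x : Wr G K) : proj x = x.a := rfl

end Wr

variable {S G K : Type*} [Group G] [Group K]

/-- the homomorphism from the free group to the wreath product given by a labelling -/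
def holHom (π : S → G) (y : G → S → K) : FreeGroup S →* Wr G K :=
  FreeGroup.lift fun s => ⟨fun g => y g s, π s⟩

/-- holonomy of the labelling `y` along the word `w` read from the vertex `g` -/
def hol (π : S → G) (y : G → S → K) (g : G) (w : FreeGroup S) : K := (holHom π y w).f g

theorem holHom_a (π : S → G) (y : G → S → K) (w : FreeGroup S) :
    (holHom π y w).a = FreeGroup.lift π w := by
  have : (Wr.proj.comp (holHom π y)) = FreeGroup.lift π := by
    ext s; simp [holHom]
  exact DFunLike.congr_fun this w

theorem holHom_f (π : S → G) (y : G → S → K) (w : FreeGroup S) (g : G) :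
    (holHom π y w).f g = hol π y g w := rfl

@[simp] theorem hol_of (π : S → G) (y : G → S → K) (g : G) (s : S) :
    hol π y g (FreeGroup.of s) = y g s := by
  simp [hol, holHom]

@[simp] theorem hol_one (π : S → G) (y : G → S → K) (g : G) : hol π y g 1 = 1 := by
  simp [hol]

theorem hol_mul (π : S → G) (y : G → S → K) (g : G) (w w' : FreeGroup S) :
    hol π y g (w * w') = hol π y g w * hol π y (g * FreeGroup.lift π w) w' := by
  simp [hol, holHom_a]

theorem hol_inv (π : S → G) (y : G → S → K) (g : G) (w : FreeGroup S) :
    hol π y g w⁻¹ = (hol π y (g * (FreeGroup.lift π w)⁻¹) w)⁻¹ := by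
  simp [hol, holHom_a]

/-- naturality in the coefficient group -/
theorem map_hol {K' : Type*} [Group K'] (φ : K →* K') (π : S → G) (y : G → S → K) (g : G)
    (w : FreeGroup S) : φ (hol π y g w) = hol π (fun g s => φ (y g s)) g w := by
  induction w using FreeGroup.induction_on generalizing g with
  | C1 => simp
  | of s => simp
  | inv_of s ih => rw [hol_inv, hol_inv, map_inv, ih]
  | mul u v ihu ihv => rw [hol_mul, hol_mul, map_mul, ihu, ihv]

/-- equivariance under left translation -/
theorem hol_translate (π : S → G) (y : G → S → K) (h g : G) (w : FreeGroup S) :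
    hol π (fun g s => y (h * g) s) g w = hol π y (h * g) w := by
  induction w using FreeGroup.induction_on generalizing g with
  | C1 => simp
  | of s => simp
  | inv_of s ih => rw [hol_inv, hol_inv, ih, mul_assoc]
  | mul u v ihu ihv => rw [hol_mul, hol_mul, ihu, ihv, mul_assoc]

/-- gauge transformations -/
theorem hol_gauge (π : S → G) (y : G → S → K) (u : G → K) (g : G) (w : FreeGroup S) :
    hol π (fun g s => u g * y g s * (u (g * π s))⁻¹) g w =
      u g * hol π y g w * (u (g * FreeGroup.lift π w))⁻¹ := by
  induction w using FreeGroup.induction_on generalizing g with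
  | C1 => simp
  | of s => simp
  | inv_of s ih => rw [hol_inv, hol_inv, ih]; simp [mul_assoc]
  | mul u v ihu ihv => rw [hol_mul, hol_mul, ihu, ihv]; simp [mul_assoc]

/-- for commutative coefficients the holonomy is multiplicative in the labelling -/
theorem hol_mul_label {A : Type*} [CommGroup A] (π : S → G) (y y' : G → S → A) (g : G)
    (w : FreeGroup S) :
    hol π (fun g s => y g s * y' g s) g w = hol π y g w * hol π y' g w := by
  induction w using FreeGroup.induction_on generalizing g with
  | C1 => simp
  | of s => simp
  | inv_of s ih => rw [hol_inv, hol_inv, hol_inv, ih, mul_inv]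
  | mul u v ihu ihv => rw [hol_mul, hol_mul, hol_mul, ihu, ihv, mul_mul_mul_comm]

theorem hol_one_label (π : S → G) (g : G) (w : FreeGroup S) :
    hol π (fun _ _ => (1 : K)) g w = 1 := by
  induction w using FreeGroup.induction_on generalizing g with
  | C1 => simp
  | of s => simp
  | inv_of s ih => rw [hol_inv, ih, inv_one]
  | mul u v ihu ihv => rw [hol_mul, ihu, ihv, mul_one]

theorem hol_inv_label {A : Type*} [CommGroup A] (π : S → G) (y : G → S → A) (g : G)
    (w : FreeGroup S) : hol π (fun g s => (y g s)⁻¹) g w = (hol π y g w)⁻¹ := by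
  have h := hol_mul_label π (fun g s => (y g s)⁻¹) y g w
  simp only [inv_mul_cancel, hol_one_label] at h
  exact eq_inv_of_mul_eq_one_left h.symm

/-- change of generators along a map of alphabets -/
theorem hol_map {S' : Type*} (ι : S → S') (π : S' → G) (y : G → S' → K) (g : G)
    (w : FreeGroup S) :
    hol π y g (FreeGroup.map ι w) = hol (π ∘ ι) (fun g s => y g (ι s)) g w := by
  have hl : ∀ w : FreeGroup S, FreeGroup.lift π (FreeGroup.map ι w) = FreeGroup.lift (π ∘ ι) w := by
    intro w
    have : (FreeGroup.lift π).comp (FreeGroup.map ι) = FreeGroup.lift (π ∘ ι) := by ext s; simp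
    exact DFunLike.congr_fun this w
  induction w using FreeGroup.induction_on generalizing g with
  | C1 => simp
  | of s => simp
  | inv_of s ih => rw [map_inv, hol_inv, hol_inv, hl, ih]
  | mul u v ihu ihv => rw [map_mul, hol_mul, hol_mul, hl, ihu, ihv]

/-- the holonomy along a fixed word only depends on finitely many labels -/
theorem exists_finset_hol (π : S → G) (g : G) (w : FreeGroup S) :
    ∃ T : Finset (G × S), ∀ {K : Type} [Group K] (y y' : G → S → K),
      (∀ p ∈ T, y p.1 p.2 = y' p.1 p.2) → hol π y g w = hol π y' g w := by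
  classical
  induction w using FreeGroup.induction_on generalizing g with
  | C1 => exact ⟨∅, fun y y' _ => by simp⟩
  | of s => exact ⟨{(g, s)}, fun y y' h => by simpa using h (g, s) (by simp)⟩
  | inv_of s ih =>
    obtain ⟨T, hT⟩ := ih (g * (FreeGroup.lift π (FreeGroup.of s))⁻¹)
    exact ⟨T, fun y y' h => by rw [hol_inv, hol_inv, hT y y' h]⟩
  | mul u v ihu ihv =>
    obtain ⟨T, hT⟩ := ihu g
    obtain ⟨T', hT'⟩ := ihv (g * FreeGroup.lift π u)
    exact ⟨T ∪ T', fun y y' h => by
      rw [hol_mul, hol_mul, hT y y' fun p hp => h p (Finset.mem_union_left _ hp),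
        hT' y y' fun p hp => h p (Finset.mem_union_right _ hp)]⟩

/-- A presentation of `G` whose Cayley complex has a split injective second boundary map: for each
two-cell `c₀` some integral one-cochain takes the value one on the boundary of `c₀` and zero on the
boundary of every other two-cell. -/
structure IsAsphPres {S R G : Type} [Group G] (π : S → G) (rel : R → FreeGroup S) : Prop where
  surj : Function.Surjective (FreeGroup.lift π)
  ker_eq : (FreeGroup.lift π).ker = Subgroup.normalClosure (Set.range rel)
  dual : ∀ c₀ : G × R, ∃ n : G → S → Multiplicative ℤ,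
    hol π n c₀.1 (rel c₀.2) = Multiplicative.ofAdd 1 ∧
      ∀ c : G × R, c ≠ c₀ → hol π n c.1 (rel c.2) = 1

end Crest.Agent.Lib.CWComb
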