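import Mathlib

/-! A continuous family of nonzero idempotents over a contractible space has a nowhere vanishing
continuous section of its range (the pulled back bundle has a nonvanishing section), and the
degree-one family of rank one projections on the plane.

Recipe for `exists_section`. Let `h : I × E → E` be a homotopy from a constant map `e₀` to `id`.
Put `f (e, s, t) = |s - t| + max 0 (1 - ‖P (h (s,e)) - P (h (t,e))‖) > 0` and
`δ e = sInf (f (e, ·) '' univ) > 0` (continuous by `IsCompact.continuous_sInf`, positive since the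
inf over the compact `I × I` is attained). If `|s - t| < δ e` then `‖P (h (s,e)) - P (h (t,e))‖ < 1`.
Put `t k e = min 1 (k * δ e / 2)`, `v 0 e = v₀` (a nonzero vector in the range of `P e₀`),
`v (k+1) e = P (h (t (k+1) e, e)) (v k e)`. Each `v k` is continuous, lies in the range of
`P (h (t k e, e))` and is nonzero (`P' v = v + (P' - P) v`). For `k ≥ 2 / δ e` it is stationary, and
locally uniformly so; define `v e = v ⌈2 / δ e⌉₊ e`; near `e₁` it agrees with `v N` for
`N = ⌈4 / δ e₁⌉₊`.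

Recipe for `exists_disc_family`: `u w = (w, max (1/2 - ‖w‖) 0)`,
`Q w (a, b) = ((conj u₁ * a + conj u₂ * b) / (|u₁|² + |u₂|²)) • u w` (so `u₂` is real),
for `‖w‖ ≥ 1/2` it is the projection onto the first coordinate. -/

set_option autoImplicit false

namespace Crest.Agent.Lib.CWComb

theorem exists_section {E : Type} [TopologicalSpace E] [ContractibleSpace E]
    {V : Type} [NormedAddCommGroup V] [NormedSpace ℂ V]
    (P : E → V →L[ℂ] V) (hP : Continuous P) (hidem : ∀ e x, P e (P e x) = P e x)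
    (hne : ∀ e, P e ≠ 0) :
    ∃ v : E → V, Continuous v ∧ ∀ e, P e (v e) = v e ∧ v e ≠ 0 := by
  obtain ⟨y, ⟨H⟩⟩ := id_nullhomotopic E
  obtain ⟨G, hG, hG0, hG1, hGi⟩ : ∃ G : ℝ → E → V →L[ℂ] V,
      Continuous (fun p : ℝ × E => G p.1 p.2) ∧ (∀ e, G 0 e = P y) ∧ (∀ e, G 1 e = P e) ∧
      ∀ t e x, G t e (G t e x) = G t e x := by
    refine ⟨fun t e => P (H (Set.projIcc 0 1 zero_le_one (1 - t), e)), ?_, fun e => ?_,
      fun e => ?_, fun t e x => hidem _ x⟩
    · refine hP.comp (H.continuous.comp (Continuous.prodMk ?_ continuous_snd))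
      exact continuous_projIcc.comp (continuous_const.sub continuous_fst)
    · have : Set.projIcc (0 : ℝ) 1 zero_le_one (1 - 0) = 1 := by
        rw [sub_zero, Set.projIcc_right]
        rfl
      simp only [this, H.apply_one, ContinuousMap.const_apply]
    · have : Set.projIcc (0 : ℝ) 1 zero_le_one (1 - 1) = 0 := by
        rw [sub_self, Set.projIcc_left]
        rfl
      simp only [this, H.apply_zero, ContinuousMap.id_apply]
  obtain ⟨δ, hδ, hδ0, hδ1⟩ : ∃ δ : E → ℝ, Continuous δ ∧ (∀ e, 0 < δ e) ∧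
      ∀ e s t, s ∈ Set.Icc (0 : ℝ) 1 → t ∈ Set.Icc (0 : ℝ) 1 → |s - t| < δ e →
        ‖G s e - G t e‖ < 1 := by
    have hK : IsCompact (Set.Icc (0 : ℝ) 1 ×ˢ Set.Icc (0 : ℝ) 1) :=
      isCompact_Icc.prod isCompact_Icc
    set f : E → ℝ × ℝ → ℝ := fun e p => |p.1 - p.2| + max 0 (1 - ‖G p.1 e - G p.2 e‖) with hf
    have hfc : Continuous (Function.uncurry f) := by
      have h1 : Continuous fun q : E × (ℝ × ℝ) => G q.2.1 q.1 :=
        hG.comp (f := fun q : E × (ℝ × ℝ) => (q.2.1, q.1)) (by fun_prop)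
      have h2 : Continuous fun q : E × (ℝ × ℝ) => G q.2.2 q.1 :=
        hG.comp (f := fun q : E × (ℝ × ℝ) => (q.2.2, q.1)) (by fun_prop)
      exact ((continuous_snd.fst.sub continuous_snd.snd).abs).add
        (continuous_const.max (continuous_const.sub (h1.sub h2).norm))
    have hfe : ∀ e, Continuous (f e) := fun e => hfc.comp (Continuous.prodMk_right e)
    refine ⟨fun e => sInf (f e '' (Set.Icc (0 : ℝ) 1 ×ˢ Set.Icc (0 : ℝ) 1)),
      hK.continuous_sInf hfc, fun e => ?_, fun e s t hs ht hst => ?_⟩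
    · obtain ⟨p, -, hp⟩ := hK.exists_sInf_image_eq
        ⟨(0, 0), Set.left_mem_Icc.2 zero_le_one, Set.left_mem_Icc.2 zero_le_one⟩
        (hfe e).continuousOn
      refine lt_of_lt_of_eq ?_ hp.symm
      simp only [hf]
      rcases eq_or_ne p.1 p.2 with h | h
      · simp [h]
      · exact add_pos_of_pos_of_nonneg (abs_pos.2 (sub_ne_zero.2 h)) (le_max_left _ _)
    · have h1 : sInf (f e '' (Set.Icc (0 : ℝ) 1 ×ˢ Set.Icc (0 : ℝ) 1)) ≤ f e (s, t) :=
        csInf_le (hK.image (hfe e)).bddBelow ⟨(s, t), ⟨hs, ht⟩, rfl⟩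
      have h2 : 0 < max 0 (1 - ‖G s e - G t e‖) := by
        simp only [hf] at h1 hst
        linarith
      rcases lt_max_iff.1 h2 with h | h
      · exact absurd h (lt_irrefl _)
      · linarith
  obtain ⟨x₀, hx₀⟩ : ∃ x, P y x ≠ 0 := by
    by_contra h
    push Not at h
    exact hne y (ContinuousLinearMap.ext h)
  set t : ℕ → E → ℝ := fun k e => min 1 (k * δ e / 2) with ht
  have tc : ∀ k, Continuous (t k) := fun k =>
    continuous_const.min ((continuous_const.mul hδ).div_const 2)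
  have tm : ∀ k e, t k e ∈ Set.Icc (0 : ℝ) 1 := fun k e =>
    ⟨le_min zero_le_one (by have := hδ0 e; positivity), min_le_left _ _⟩
  have td : ∀ k e, |t (k + 1) e - t k e| < δ e := fun k e => by
    have h1 := abs_min_sub_min_le_max (1 : ℝ) (((k + 1 : ℕ) : ℝ) * δ e / 2) 1 (k * δ e / 2)
    have h2 : ((k + 1 : ℕ) : ℝ) * δ e / 2 - k * δ e / 2 = δ e / 2 := by
      push_cast
      ring
    have h3 := hδ0 e
    rw [h2, sub_self, abs_zero, abs_of_pos (half_pos h3), max_eq_right (half_pos h3).le] at h1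
    exact h1.trans_lt (half_lt_self h3)
  obtain ⟨v, v0, vs⟩ : ∃ v : ℕ → E → V, (∀ e, v 0 e = P y x₀) ∧
      ∀ k e, v (k + 1) e = G (t (k + 1) e) e (v k e) :=
    ⟨fun k => Nat.rec (fun _ => P y x₀) (fun k w e => G (t (k + 1) e) e (w e)) k,
      fun _ => rfl, fun _ _ => rfl⟩
  have vc : ∀ k, Continuous (v k) := by
    intro k
    induction k with
    | zero => exact (funext v0 : v 0 = fun _ => P y x₀) ▸ continuous_const
    | succ k ih =>
      rw [show v (k + 1) = fun e => G (t (k + 1) e) e (v k e) from funext (vs k)]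
      exact (hG.comp (f := fun e => (t (k + 1) e, e)) ((tc _).prodMk continuous_id)).clm_apply ih
  have vi : ∀ k e, G (t k e) e (v k e) = v k e ∧ v k e ≠ 0 := by
    intro k e
    induction k with
    | zero =>
      have : t 0 e = 0 := by simp [ht]
      rw [this, hG0, v0]
      exact ⟨hidem y x₀, hx₀⟩
    | succ k ih =>
      rw [vs]
      refine ⟨hGi _ _ _, fun h0 => ?_⟩
      have h1 := hδ1 e _ _ (tm (k + 1) e) (tm k e) (td k e)
      have h2 : (G (t (k + 1) e) e - G (t k e) e) (v k e) = -v k e := by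
        rw [sub_apply, h0, ih.1, zero_sub]
      have h3 := (G (t (k + 1) e) e - G (t k e) e).le_opNorm (v k e)
      rw [h2, norm_neg] at h3
      have h4 := norm_pos_iff.2 ih.2
      nlinarith
  have t1 : ∀ k e, ⌈2 / δ e⌉₊ ≤ k → t k e = 1 := fun k e hk => by
    have h1 : 2 / δ e ≤ k := Nat.ceil_le.1 hk
    rw [div_le_iff₀ (hδ0 e)] at h1
    exact min_eq_left (by linarith)
  have vst : ∀ e k, ⌈2 / δ e⌉₊ ≤ k → v k e = v ⌈2 / δ e⌉₊ e := by
    intro e k hk
    induction k, hk using Nat.le_induction with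
    | base => rfl
    | succ k hk ih =>
      have h1 := (vi k e).1
      rw [t1 k e hk] at h1
      rw [vs, t1 (k + 1) e (hk.trans (Nat.le_succ k)), h1, ih]
  refine ⟨fun e => v ⌈2 / δ e⌉₊ e, continuous_iff_continuousAt.2 fun e₁ => ?_, fun e => ?_⟩
  · refine (vc ⌈4 / δ e₁⌉₊).continuousAt.congr ?_
    have h1 : ∀ᶠ e in nhds e₁, δ e₁ / 2 < δ e :=
      hδ.continuousAt.eventually (lt_mem_nhds (half_lt_self (hδ0 e₁)))
    filter_upwards [h1] with e he
    refine vst e _ (Nat.ceil_mono ?_)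
    rw [div_le_div_iff₀ (hδ0 e) (hδ0 e₁)]
    linarith
  · have h := vi ⌈2 / δ e⌉₊ e
    rw [t1 _ e le_rfl, hG1] at h
    exact h

/-- a continuous nonvanishing function on the plane has a continuous logarithm
(`Complex.isCoveringMap_exp` and `IsCoveringMap.existsUnique_continuousMap_lifts`) -/
theorem exists_log (a : ℂ → ℂ) (ha : Continuous a) (h0 : ∀ w, a w ≠ 0) :
    ∃ L : ℂ → ℂ, Continuous L ∧ ∀ w, a w = Complex.exp (L w) := by
  have hU : IsSimplyConnected (Set.univ : Set ℂ) :=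
    haveI := (convex_univ (𝕜 := ℝ) (E := ℂ)).contractibleSpace Set.univ_nonempty
    (inferInstance : SimplyConnectedSpace (Set.univ : Set ℂ))
  obtain ⟨L, hL, h⟩ := Complex.exists_continuousOn_eqOn_exp_comp hU isOpen_univ ha.continuousOn
    (by rintro ⟨w, -, hw⟩; exact h0 w hw)
  exact ⟨L, continuousOn_univ.1 hL, fun w => (h (Set.mem_univ w)).symm⟩

/-- A family `Q` of idempotents on the plane, equal to the projection `Pinf` on the first coordinate
for `‖w‖ ≥ 1/2`, such that every continuous nonvanishing section `v` of its range has first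
coordinate `exp (L w) * w` for a continuous `L`. -/
theorem exists_disc_family :
    ∃ (Pinf : (ℂ × ℂ) →L[ℂ] (ℂ × ℂ)) (Q : ℂ → (ℂ × ℂ) →L[ℂ] (ℂ × ℂ)),
      (∀ x, Pinf x = (x.1, 0)) ∧ Continuous Q ∧ (∀ w x, Q w (Q w x) = Q w x) ∧ (∀ w, Q w ≠ 0) ∧
      (∀ w, 1 / 2 ≤ ‖w‖ → Q w = Pinf) ∧
      ∀ v : ℂ → ℂ × ℂ, Continuous v → (∀ w, Q w (v w) = v w ∧ v w ≠ 0) →
        ∃ L : ℂ → ℂ, Continuous L ∧ ∀ w, (v w).1 = Complex.exp (L w) * w := by
  obtain ⟨r, rc, r0, r1⟩ : ∃ r : ℂ → ℝ, Continuous r ∧ (∀ w, 1 / 2 ≤ ‖w‖ → r w = 0) ∧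
      r 0 ≠ 0 :=
    ⟨fun w => max (1 / 2 - ‖w‖) 0, by fun_prop, fun w hw => max_eq_right (by linarith), by simp⟩
  set N : ℂ → ℂ := fun w => (starRingEnd ℂ) w * w + (r w : ℂ) * (r w : ℂ) with hN
  have Nc : Continuous N := by
    have := Complex.continuous_conj
    simp only [hN]
    fun_prop
  have N0 : ∀ w, N w ≠ 0 := fun w => by
    have e : N w = ((Complex.normSq w + r w * r w : ℝ) : ℂ) := by
      simp only [hN]
      rw [← Complex.normSq_eq_conj_mul_self]
      push_cast
      rfl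
    rw [e, Complex.ofReal_ne_zero]
    rcases eq_or_ne w 0 with rfl | h
    · have := mul_self_pos.2 r1
      simp only [map_zero]
      linarith
    · have := Complex.normSq_pos.2 h
      have := mul_self_nonneg (r w)
      linarith
  set ℓ : ℂ → (ℂ × ℂ) →L[ℂ] ℂ := fun w =>
    ((starRingEnd ℂ) w / N w) • ContinuousLinearMap.fst ℂ ℂ ℂ +
      ((r w : ℂ) / N w) • ContinuousLinearMap.snd ℂ ℂ ℂ with hℓ
  have ℓa : ∀ w x, ℓ w x = (starRingEnd ℂ) w / N w * x.1 + (r w : ℂ) / N w * x.2 := fun w x => by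
    simp [hℓ]
  have ℓc : Continuous ℓ := by
    have h1 : Continuous fun w => (starRingEnd ℂ) w / N w := Complex.continuous_conj.div Nc N0
    have h2 : Continuous fun w => (r w : ℂ) / N w :=
      (Complex.continuous_ofReal.comp rc).div Nc N0
    exact (h1.smul continuous_const).add (h2.smul continuous_const)
  have ℓu : ∀ w, ℓ w (w, (r w : ℂ)) = 1 := fun w => by
    rw [ℓa]
    have := N0 w
    field_simp
    simp only [hN]
    ring
  have u0 : ∀ w, ((w, (r w : ℂ)) : ℂ × ℂ) ≠ 0 := fun w h => by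
    have := ℓu w
    rw [h, map_zero] at this
    exact zero_ne_one this
  refine ⟨(ContinuousLinearMap.inl ℂ ℂ ℂ).comp (ContinuousLinearMap.fst ℂ ℂ ℂ),
    fun w => (ℓ w).smulRight (w, (r w : ℂ)), fun x => rfl, ?_, fun w x => ?_, fun w h => ?_,
    fun w hw => ?_, fun v hv h => ?_⟩
  · have hu : Continuous fun w : ℂ => ((w, (r w : ℂ)) : ℂ × ℂ) :=
      continuous_id.prodMk (Complex.continuous_ofReal.comp rc)
    exact ((ContinuousLinearMap.smulRightL ℂ (ℂ × ℂ) (ℂ × ℂ)).continuous.comp ℓc).clm_apply hu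
  · simp only [ContinuousLinearMap.smulRight_apply, map_smul, ℓu, one_smul]
  · have := congrArg (fun T : (ℂ × ℂ) →L[ℂ] (ℂ × ℂ) => T (w, (r w : ℂ))) h
    simp only [ContinuousLinearMap.smulRight_apply, ℓu, one_smul, zero_apply] at this
    exact u0 w this
  · refine ContinuousLinearMap.ext fun x => ?_
    have h1 := ℓu w
    rw [ℓa] at h1
    simp only [ContinuousLinearMap.smulRight_apply, ℓa, r0 w hw, Complex.ofReal_zero, zero_div,
      zero_mul, add_zero, Prod.smul_mk, smul_eq_mul, mul_zero] at h1 ⊢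
    rw [mul_right_comm, h1, one_mul]
    rfl
  · obtain ⟨L, hL, hL'⟩ := exists_log (fun w => ℓ w (v w)) (ℓc.clm_apply hv) fun w h0 => by
      have h1 := (h w).1
      rw [ContinuousLinearMap.smulRight_apply, h0, zero_smul] at h1
      exact (h w).2 h1.symm
    refine ⟨L, hL, fun w => ?_⟩
    have h1 := congrArg Prod.fst (h w).1
    rw [← hL' w, ← h1]
    rfl

end Crest.Agent.Lib.CWComb
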