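import Crest.Agent.Lib.CWComb.PathFun

/-! The winding number as a path function. -/

set_option autoImplicit false

open Set unitInterval Topology Filter Complex

namespace Crest.Agent.Lib.CWComb

theorem exists_wind {B : Type*} [TopologicalSpace B] (a : B → ℂ) (ha : Continuous a)
    (h0 : ∀ x, a x ≠ 0) :
    ∃ κ : PathFun B (Multiplicative ℤ), ∀ {x : B} (p : Path x x) (L : I → ℂ), Continuous L →
      (∀ s, exp (L s) = a (p s)) →
        ((Multiplicative.toAdd (κ.val p) : ℤ) : ℂ) * (2 * Real.pi * Complex.I) = L 1 - L 0 := by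
  have cov := Complex.isCoveringMap_exp
  let a' : C(B, {z : ℂ // z ≠ 0}) := ⟨fun x => ⟨a x, h0 x⟩, ha.subtype_mk _⟩
  have hstart : ∀ {x y : B} (p : Path x y), (a'.comp (p : C(I, B))) 0 =
      (fun z : ℂ => (⟨_, z.exp_ne_zero⟩ : {z : ℂ // z ≠ 0})) (log (a x)) := by
    intro x y p
    apply Subtype.ext
    simp [a', exp_log (h0 x)]
  let Λ : ∀ {x y : B}, Path x y → C(I, ℂ) := fun {x y} p =>
    cov.liftPath (a'.comp (p : C(I, B))) (log (a x)) (hstart p)
  have hΛ : ∀ {x y : B} (p : Path x y) s, exp (Λ p s) = a (p s) := fun p s =>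
    congrArg Subtype.val (congrFun (cov.liftPath_lifts _ _ (hstart p)) s)
  have hΛ0 : ∀ {x y : B} (p : Path x y), Λ p 0 = log (a x) := fun p => cov.liftPath_zero _ _ _
  have spec : ∀ {x y : B} (p : Path x y) (L : I → ℂ), Continuous L → (∀ s, exp (L s) = a (p s)) →
      Λ p 1 - log (a x) = L 1 - L 0 := by
    intro x y p L hL hLp
    have h : (fun s => L s - L 0 + log (a x)) = Λ p := by
      refine (cov.eq_liftPath_iff _).2 ⟨by fun_prop, funext fun s => Subtype.ext ?_, by simp⟩
      change exp (L s - L 0 + log (a x)) = a (p s)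
      rw [exp_add, exp_sub, hLp, hLp, p.source, exp_log (h0 x), div_mul_cancel₀ _ (h0 x)]
    rw [← h]; ring
  have hint : ∀ {x y : B} (p : Path x y), ∃ n : ℤ,
      Λ p 1 - log (a y) = n * (2 * Real.pi * Complex.I) := by
    intro x y p
    rw [← exp_eq_one_iff, exp_sub, hΛ, p.target, exp_log (h0 y), div_self (h0 y)]
  choose n hn using @hint
  have hne : (2 * Real.pi * Complex.I : ℂ) ≠ 0 := two_pi_I_ne_zero
  refine ⟨⟨fun p => Multiplicative.ofAdd (n p), fun {x y z} p q => ?_, fun {x y p q} h => ?_⟩,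
    fun {x} p L hL hLp => ?_⟩
  · rw [← ofAdd_add]
    congr 1
    have key : Λ (p.trans q) 1 - log (a x) = (Λ p 1 - log (a x)) + (Λ q 1 - log (a y)) := by
      let P₁ : Path (Λ p 0) (Λ p 1) := ⟨Λ p, rfl, rfl⟩
      let P₂ : Path (Λ p 1) (Λ q 1 - log (a y) + Λ p 1) :=
        ⟨⟨fun s => Λ q s - log (a y) + Λ p 1, by fun_prop⟩, by simp [hΛ0], rfl⟩
      rw [spec (p.trans q) (P₁.trans P₂) (P₁.trans P₂).continuous, Path.source, Path.target, hΛ0]
      · ring
      · intro s
        simp only [Path.trans_apply]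
        split_ifs
        · exact hΛ p _
        · change exp (Λ q _ - log (a y) + Λ p 1) = _
          rw [exp_add, exp_sub, hΛ, hΛ, p.target, exp_log (h0 y), div_mul_cancel₀ _ (h0 y)]
    have e : ((n (p.trans q) : ℤ) : ℂ) * (2 * Real.pi * Complex.I) =
        ((n p + n q : ℤ) : ℂ) * (2 * Real.pi * Complex.I) := by
      push_cast
      rw [add_mul, ← hn, ← hn, ← hn]
      linear_combination key
    exact_mod_cast mul_right_cancel₀ hne e
  · congr 1
    have key : Λ p 1 = Λ q 1 :=
      cov.liftPath_apply_one_eq_of_homotopicRel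
        (ContinuousMap.HomotopicRel.comp_continuousMap h a') _ _ _
    have e : ((n p : ℤ) : ℂ) * (2 * Real.pi * Complex.I) = ((n q : ℤ) : ℂ) * (2 * Real.pi * Complex.I) := by
      rw [← hn, ← hn, key]
    exact_mod_cast mul_right_cancel₀ hne e
  · change ((n p : ℤ) : ℂ) * _ = _
    rw [← hn, spec p L hL hLp]

end Crest.Agent.Lib.CWComb
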