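import Crest.Agent.Lib.CWComb.Face
import Crest.Agent.Lib.CWComb.Cover
import Crest.Agent.Lib.CWComb.Wind
import Crest.Agent.Lib.CWComb.Hopf

/-! The cochains dual to the lifted two-cells of an aspherical `W2` complex. -/

set_option autoImplicit false

open Set unitInterval Topology Filter Complex

namespace Crest.Agent.Lib.CWComb

variable {X E : Type} [TopologicalSpace X] [TopologicalSpace E] (W : W2 X) {p : E → X}
  {G : Type} [Group G]

theorem t2_of_cover [T2Space X] (cov : IsCoveringMap p) : T2Space E := by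
  refine ⟨fun e e' hne => ?_⟩
  by_cases h : p e = p e'
  · exact cov.isSeparatedMap e e' h hne
  · exact separated_by_continuous cov.continuous h

theorem isOpen_image_lift (cov : IsCoveringMap p) (j : W.Fc) (Ψ : C(ℂ, E))
    (hΨ : ∀ z, p (Ψ z) = W.fc j z) : IsOpen (Ψ '' {z | ‖z‖ < 1}) := by
  rw [isOpen_iff_forall_mem_open]
  rintro _ ⟨z₀, hz₀, rfl⟩
  obtain ⟨U, hUo, hU, hinj⟩ := cov.isLocalHomeomorph.isLocallyInjective (Ψ z₀)
  refine ⟨U ∩ p ⁻¹' (W.fc j '' ({z | ‖z‖ < 1} ∩ Ψ ⁻¹' U)), ?_, hUo.inter ((W.isOpen_image_fc j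
    ((isOpen_lt continuous_norm continuous_const).inter (hUo.preimage Ψ.continuous))
    fun _ h => h.1).preimage cov.continuous), hU, z₀, ⟨hz₀, hU⟩, (hΨ z₀).symm⟩
  rintro e ⟨he, z, ⟨hz, hzU⟩, h⟩
  exact ⟨z, hz, hinj hzU he ((hΨ z).trans h)⟩

namespace W2

/-- the group elements attached to the edges -/
noncomputable def gen (L : Lab p G) (e : W.Ed) : G := (L.restrict W.X1).ν.val (W.ep e)

theorem val_f_eq_hol (L : Lab p G) {K : Type*} [Group K] (κ : PathFun W.X1 (Wr G K))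
    (hκ : ∀ {x y : W.X1} (q : Path x y), (κ.val q).a = (L.restrict W.X1).ν.val q)
    {x y : W.X1} (q : Path x y) :
    κ.val q = κ.val (W.tr x) * holHom (W.gen L) (fun g e => (κ.val (W.ep e)).f g) (W.mu1.val q) *
      (κ.val (W.tr y))⁻¹ := by
  rw [W.val_eq_lift κ q]
  congr 4
  funext e
  exact Wr.ext rfl (hκ _)

theorem hol_loop (L : Lab p G) {K : Type*} [CommGroup K] (κ : PathFun W.X1 (Wr G K))
    (hκ : ∀ {x y : W.X1} (q : Path x y), (κ.val q).a = (L.restrict W.X1).ν.val q)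
    {x : W.X1} (q : Path x x) (hq : FreeGroup.lift (W.gen L) (W.mu1.val q) = 1) (g : G) :
    hol (W.gen L) (fun g e => (κ.val (W.ep e)).f g) (g * (L.restrict W.X1).ν.val (W.tr x))
      (W.mu1.val q) = (κ.val q).f g := by
  rw [W.val_f_eq_hol L κ hκ q]
  simp [holHom_a, hq, holHom_f, hκ]

theorem hol_vertex (L : Lab p G) {K : Type*} [Group K] (κ : PathFun W.X1 (Wr G K))
    (hκ : ∀ {x y : W.X1} (q : Path x y), (κ.val q).a = (L.restrict W.X1).ν.val q)
    {v v' : W.V} (q : Path (W.vx1 v) (W.vx1 v')) (g : G) :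
    hol (W.gen L) (fun g e => (κ.val (W.ep e)).f g) g (W.mu1.val q) = (κ.val q).f g := by
  rw [W.val_f_eq_hol L κ hκ q, W.val_tr_vx, W.val_tr_vx]
  simp [holHom_f]

theorem nu_bl (L : Lab p G) (j : W.Fc) : (L.restrict W.X1).ν.val (W.bl j) = 1 := by
  obtain ⟨f, hf⟩ := W.exists_face_potential L.ν j
  change L.ν.val _ = 1
  rw [hf _ (fun u : I => exp (((2 * Real.pi * u : ℝ) : ℂ) * Complex.I)) (by fun_prop) fun u => rfl]
  simp [exp_two_pi_mul_I]

theorem lift_gen_rel (L : Lab p G) (j : W.Fc) : FreeGroup.lift (W.gen L) (W.rel j) = 1 := by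
  have h := W.val_eq_lift (L.restrict W.X1).ν (W.bl j)
  rw [W.nu_bl L j, eq_comm, mul_inv_eq_one, mul_eq_left] at h
  exact h

theorem lift_gen_vertex (L : Lab p G) {v v' : W.V} (q : Path (W.vx1 v) (W.vx1 v')) :
    FreeGroup.lift (W.gen L) (W.mu1.val q) = (L.restrict W.X1).ν.val q := by
  rw [W.val_eq_lift (L.restrict W.X1).ν q, W.val_tr_vx, W.val_tr_vx, one_mul, inv_one, mul_one]
  rfl

/-- coboundaries of vertex functions -/
theorem exists_vertex_cochain (L : Lab p G) {K : Type*} [CommGroup K] (f : G → W.V → K) :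
    ∃ n : G → W.Ed → K, (∀ g j, hol (W.gen L) n g (W.rel j) = 1) ∧
      ∀ {v v' : W.V} (q : Path (W.vx1 v) (W.vx1 v')) (g : G),
        hol (W.gen L) n g (W.mu1.val q) = (f g v)⁻¹ * f (g * (L.restrict W.X1).ν.val q) v' := by
  let ν := (L.restrict W.X1).ν
  let κ : PathFun W.X1 (Wr G K) :=
    { val := fun {x y} q => ⟨fun g => (f g (W.vt x))⁻¹ * f (g * ν.val q) (W.vt y), ν.val q⟩
      val_trans := fun q q' => Wr.ext (funext fun g => by simp [ν.val_trans, mul_assoc])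
        (ν.val_trans q q')
      val_hom := fun h => by rw [ν.val_hom h] }
  refine ⟨fun g e => (κ.val (W.ep e)).f g, fun g j => ?_, fun q g => ?_⟩
  · have := W.hol_loop L κ (fun _ => rfl) (W.bl j) (W.lift_gen_rel L j)
      (g * (ν.val (W.tr (W.att j 0)))⁻¹)
    rw [inv_mul_cancel_right] at this
    rw [rel, this]
    simp [κ, ν, W.nu_bl L j]
  · rw [W.hol_vertex L κ (fun _ => rfl) q g]
    simp [κ, ν, vt_vx]

/-- cochains dual to the lifted faces -/
theorem exists_face_cochain [T2Space X] [ContractibleSpace E] (cov : IsCoveringMap p)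
    (L : Lab p G) (c₀ : G × W.Fc) :
    ∃ n : G → W.Ed → Multiplicative ℤ,
      hol (W.gen L) n c₀.1 (W.rel c₀.2) = Multiplicative.ofAdd 1 ∧
        ∀ c : G × W.Fc, c ≠ c₀ → hol (W.gen L) n c.1 (W.rel c.2) = 1 := by
  classical
  have := t2_of_cover cov
  let L1 := L.restrict W.X1
  let b : W.Fc → G := fun j => L1.ν.val (W.tr (W.att j 0))
  have hlift : ∀ c : G × W.Fc, ∃ Ψ : C(ℂ, E), L.ℓ (Ψ 1) = c.1 * (b c.2)⁻¹ ∧
      ∀ z, p (Ψ z) = W.fc c.2 z := by
    intro c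
    obtain ⟨e, he, hl⟩ := L.surj (W.fc c.2 1) (c.1 * (b c.2)⁻¹)
    obtain ⟨Ψ, ⟨h1, h2⟩, -⟩ := cov.existsUnique_continuousMap_lifts (W.fc c.2) 1 e he
    exact ⟨Ψ, h1 ▸ hl, fun z => congrFun h2 z⟩
  choose Ψ hΨl hΨ using hlift
  have hdist : ∀ c c' z z', ‖z'‖ < 1 → Ψ c z = Ψ c' z' → c = c' := by
    rintro ⟨g, j⟩ ⟨g', j'⟩ z z' hz h
    obtain ⟨rfl, rfl⟩ : j = j' ∧ z = z' :=
      W.fc_eq hz ((hΨ (g, j) z).symm.trans ((congrArg p h).trans (hΨ (g', j') z')))
    have e := cov.eq_of_comp_eq (Ψ (g, j)).continuous (Ψ (g', j)).continuous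
      (funext fun w => (hΨ (g, j) w).trans (hΨ (g', j) w).symm) z h
    have h1 := hΨl (g, j)
    rw [e, hΨl (g', j), mul_left_inj] at h1
    exact Prod.ext h1.symm rfl
  obtain ⟨Pinf, Q, hPinf, hQc, hQi, hQne, hQinf, hQ⟩ := exists_disc_family
  let U : Set E := Ψ c₀ '' {z | ‖z‖ < 1}
  have hU : IsOpen U := isOpen_image_lift W cov c₀.2 (Ψ c₀) (hΨ c₀)
  let D : Set E := Ψ c₀ '' Metric.closedBall 0 (1 / 2)
  have hD : IsClosed D := ((isCompact_closedBall _ _).image (Ψ c₀).continuous).isClosed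
  let P : E → (ℂ × ℂ) →L[ℂ] (ℂ × ℂ) := fun e => if e ∈ U then Q (W.cz (p e)) else Pinf
  have hUX : ∀ e, p e ∈ W.X1 → e ∉ U := by
    rintro _ he ⟨z, hz, rfl⟩
    exact W.fc_not_mem_X1 c₀.2 hz (hΨ c₀ z ▸ he)
  have hPΨ : ∀ z, P (Ψ c₀ z) = Q z := by
    intro z
    by_cases hz : ‖z‖ < 1
    · have hm : Ψ c₀ z ∈ U := ⟨z, hz, rfl⟩
      simp only [P, if_pos hm, hΨ, W.cz_fc _ hz]
    · have hz' := not_lt.1 hz
      simp only [P, if_neg (hUX _ (hΨ c₀ z ▸ W.fc_mem_X1 c₀.2 hz'))]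
      exact (hQinf z (by linarith)).symm
  have hPQ : ∀ e, ∃ w, P e = Q w := by
    intro e
    by_cases h : e ∈ U
    · exact ⟨_, if_pos h⟩
    · exact ⟨1, (if_neg h).trans (hQinf 1 (by norm_num)).symm⟩
  have hPc : Continuous P := by
    rw [continuous_iff_continuousAt]
    intro e
    by_cases he : e ∈ D
    · have heU : e ∈ U := by
        obtain ⟨z, hz, rfl⟩ := he
        refine mem_image_of_mem _ ?_
        rw [mem_closedBall_zero_iff] at hz
        change ‖z‖ < 1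
        linarith
      have h1 : ContinuousAt (fun e => Q (W.cz (p e))) e := by
        refine hQc.continuousAt.comp (ContinuousAt.comp (g := W.cz) ?_ cov.continuous.continuousAt)
        obtain ⟨z, hz, rfl⟩ := heU
        exact (W.continuousOn_cz c₀.2).continuousAt
          ((W.isOpen_Oj _).mem_nhds ⟨z, hz, (hΨ c₀ z).symm⟩)
      refine h1.congr ?_
      filter_upwards [hU.mem_nhds heU] with e' he'
      exact (if_pos he').symm
    · refine (continuousAt_const (y := Pinf)).congr ?_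
      filter_upwards [hD.isOpen_compl.mem_nhds he] with e' he'
      by_cases h : e' ∈ U
      · obtain ⟨z, hz, rfl⟩ := h
        rw [hPΨ, hQinf]
        by_contra h'
        exact he' (mem_image_of_mem _ (mem_closedBall_zero_iff.2 (not_le.1 h').le))
      · exact (if_neg h).symm
  obtain ⟨v, hvc, hv⟩ := exists_section P hPc
    (fun e x => by obtain ⟨w, hw⟩ := hPQ e; rw [hw]; exact hQi w x)
    (fun e => by obtain ⟨w, hw⟩ := hPQ e; rw [hw]; exact hQne w)
  have hv1 : ∀ e, e ∉ U → (v e).1 ≠ 0 := by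
    intro e he h0
    obtain ⟨h1, h2⟩ := hv e
    simp only [P, if_neg he, hPinf, h0] at h1
    exact h2 h1.symm
  obtain ⟨κ, hκ⟩ := exists_wind (fun e : p ⁻¹' W.X1 => (v e).1) (by fun_prop)
    fun e => hv1 e (hUX e e.2)
  obtain ⟨κ', hκ1, hκ2⟩ := L1.exists_transfer
    (IsCoveringMapOn.isCoveringMap_restrictPreimage W.X1 fun x _ => cov x) κ
  have hmem : ∀ c (θ : ℝ), Ψ c (exp (θ * Complex.I)) ∈ p ⁻¹' W.X1 := fun c θ => by
    rw [mem_preimage, hΨ]
    exact W.fc_mem_X1 _ (by rw [norm_exp_ofReal_mul_I])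
  have hmem1 : ∀ c, Ψ c 1 ∈ p ⁻¹' W.X1 := fun c => by simpa using hmem c 0
  let lp : ∀ c : G × W.Fc, Path (⟨Ψ c 1, hmem1 c⟩ : p ⁻¹' W.X1) ⟨Ψ c 1, hmem1 c⟩ := fun c =>
    ⟨⟨fun u => ⟨Ψ c (exp (((2 * Real.pi * u : ℝ) : ℂ) * Complex.I)), hmem c _⟩,
      Continuous.subtype_mk (by fun_prop) _⟩, Subtype.ext (by simp),
      Subtype.ext (by simp [exp_two_pi_mul_I])⟩
  have key : ∀ c : G × W.Fc, hol (W.gen L) (fun g e => (κ'.val (W.ep e)).f g) c.1 (W.rel c.2) =
      κ.val (lp c) := by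
    intro c
    have h1 := W.hol_loop L κ' hκ1 (W.bl c.2) (W.lift_gen_rel L c.2) (c.1 * (b c.2)⁻¹)
    rw [inv_mul_cancel_right] at h1
    rw [rel, h1, ← hΨl c]
    exact hκ2 (lp c) (W.bl c.2) fun u => Subtype.ext (hΨ c _)
  have hne : (2 * Real.pi * Complex.I : ℂ) ≠ 0 := two_pi_I_ne_zero
  refine ⟨fun g e => (κ'.val (W.ep e)).f g, ?_, fun c hc => ?_⟩
  · obtain ⟨Λ, hΛc, hΛ⟩ := hQ (fun w => v (Ψ c₀ w)) (by fun_prop) fun w => hPΨ w ▸ hv _
    have h := hκ (lp c₀) (fun u => Λ (exp (((2 * Real.pi * u : ℝ) : ℂ) * Complex.I)) +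
      ((2 * Real.pi * u : ℝ) : ℂ) * Complex.I) (by fun_prop) fun u => by
        rw [exp_add]; exact (hΛ _).symm
    rw [key]
    have h' : ((Multiplicative.toAdd (κ.val (lp c₀)) : ℤ) : ℂ) * (2 * Real.pi * Complex.I) =
        ((1 : ℤ) : ℂ) * (2 * Real.pi * Complex.I) := by
      rw [h]; simp [exp_two_pi_mul_I]
    have h'' : Multiplicative.toAdd (κ.val (lp c₀)) = 1 := by
      exact_mod_cast mul_right_cancel₀ hne h'
    rw [← h'', ofAdd_toAdd]
  · obtain ⟨Λ, hΛc, hΛ⟩ := exists_log (fun w => (v (Ψ c w)).1) (by fun_prop) fun w =>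
      hv1 _ fun ⟨z, hz, h⟩ => hc (hdist c c₀ w z hz h.symm)
    have h := hκ (lp c) (fun u => Λ (exp (((2 * Real.pi * u : ℝ) : ℂ) * Complex.I)))
      (by fun_prop) fun u => (hΛ _).symm
    rw [key]
    have h' : ((Multiplicative.toAdd (κ.val (lp c)) : ℤ) : ℂ) * (2 * Real.pi * Complex.I) =
        ((0 : ℤ) : ℂ) * (2 * Real.pi * Complex.I) := by
      rw [h]; simp [exp_two_pi_mul_I]
    have h'' : Multiplicative.toAdd (κ.val (lp c)) = 0 := by
      exact_mod_cast mul_right_cancel₀ hne h'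
    rw [← ofAdd_toAdd (κ.val (lp c)), h'', ofAdd_zero]

end W2

end Crest.Agent.Lib.CWComb
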