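import Crest.Agent.Lib.CWComb.Graph

/-! Two-cells of a `W2` complex: relators, the van Kampen path function, fullness. -/

set_option autoImplicit false

open Set unitInterval Topology Filter Complex

namespace Crest.Agent.Lib.CWComb

namespace W2

variable {X : Type} [TopologicalSpace X] (W : W2 X)

theorem fc_mem_X1 (j : W.Fc) {z : ℂ} (hz : 1 ≤ ‖z‖) : W.fc j z ∈ W.X1 := W.fc_mem j z hz

theorem fc_not_mem_X1 (j : W.Fc) {z : ℂ} (hz : ‖z‖ < 1) : W.fc j z ∉ W.X1 := by
  rintro (⟨v, h⟩ | ⟨e, s, hs, h⟩)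
  · exact W.vx_ne_fc v j z hz h.symm
  · exact W.ed_ne_fc e s j z hs hz h.symm

theorem cases2 (x : X) : x ∈ W.X1 ∨ ∃ j z, ‖z‖ < 1 ∧ x = W.fc j z := by
  rcases W.cover x with h | h | h
  · exact .inl (.inl h)
  · exact .inl (.inr h)
  · exact .inr h

theorem fc_eq {j j' : W.Fc} {z z' : ℂ} (hz' : ‖z'‖ < 1) (h : W.fc j z = W.fc j' z') :
    j = j' ∧ z = z' := by
  by_cases hz : ‖z‖ < 1
  · exact W.fc_inj j j' z z' hz hz' h
  · exact (W.fc_not_mem_X1 j' hz' (h ▸ W.fc_mem_X1 j (not_lt.1 hz))).elim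

theorem fc_smul (j : W.Fc) {z : ℂ} (hz : 1 ≤ ‖z‖) {c : ℝ} (hc : 1 ≤ c * ‖z‖) :
    W.fc j (c * z) = W.fc j z := by
  have hc0 : 0 < c := by
    by_contra h
    nlinarith [not_lt.1 h]
  have hn : ‖(c : ℂ) * z‖ = c * ‖z‖ := by rw [norm_mul, norm_real, Real.norm_of_nonneg hc0.le]
  rw [W.fc_ge j _ (hn ▸ hc), W.fc_ge j z hz, hn]
  congr 1
  have : (c : ℂ) ≠ 0 := by exact_mod_cast hc0.ne'
  push_cast
  rw [mul_div_mul_left _ _ this]

theorem isOpen2 (A : Set X) (h : ∀ e, IsOpen (W.ed e ⁻¹' A)) (h' : ∀ j, IsOpen (W.fc j ⁻¹' A)) :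
    IsOpen A :=
  isClosed_compl_iff.1 (W.closed2 _ (fun e => (h e).isClosed_compl) fun j => (h' j).isClosed_compl)

theorem continuous2 {Z : Type*} [TopologicalSpace Z] (f : X → Z)
    (h : ∀ e, Continuous (f ∘ W.ed e)) (h' : ∀ j, Continuous (f ∘ W.fc j)) : Continuous f :=
  continuous_iff_isClosed.2 fun _ hs => W.closed2 _ (fun e => hs.preimage (h e))
    fun j => hs.preimage (h' j)

theorem isOpen_image_fc (j : W.Fc) {U : Set ℂ} (hU : IsOpen U) (hU1 : ∀ z ∈ U, ‖z‖ < 1) :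
    IsOpen (W.fc j '' U) := by
  refine W.isOpen2 _ (fun e => ?_) fun j' => ?_
  · convert isOpen_empty using 1
    ext s
    exact ⟨fun ⟨z, hz, h⟩ => W.fc_not_mem_X1 j (hU1 z hz) (h ▸ W.ed_mem e s), fun h => h.elim⟩
  by_cases he : j' = j
  · subst he
    convert hU using 1
    ext s
    exact ⟨fun ⟨s', hs', h⟩ => (W.fc_eq (hU1 s' hs') h.symm).2 ▸ hs', fun hs => ⟨s, hs, rfl⟩⟩
  · convert isOpen_empty using 1
    ext s
    exact ⟨fun ⟨s', hs', h⟩ => he (W.fc_eq (hU1 s' hs') h.symm).1, fun h => h.elim⟩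

theorem eventually_nhds_fc (j : W.Fc) {z₀ : ℂ} (hz : ‖z₀‖ < 1) {P : X → Prop}
    (h : ∀ᶠ z in 𝓝 z₀, P (W.fc j z)) : ∀ᶠ y in 𝓝 (W.fc j z₀), P y := by
  obtain ⟨U, hU, hUo, hz₀⟩ := eventually_nhds_iff.1
    (h.and ((isOpen_lt continuous_norm continuous_const).mem_nhds hz))
  refine eventually_nhds_iff.2 ⟨W.fc j '' U, ?_, W.isOpen_image_fc j hUo fun z hz => (hU z hz).2,
    z₀, hz₀, rfl⟩
  rintro _ ⟨z, hz, rfl⟩
  exact (hU z hz).1

theorem exists_co2 : ∃ co : X → W.X1 ⊕ (W.Fc × ℂ), (∀ x : W.X1, co x = .inl x) ∧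
    ∀ j z, ‖z‖ < 1 → co (W.fc j z) = .inr (j, z) := by
  have : ∀ x : X, ∃ c : W.X1 ⊕ (W.Fc × ℂ), (∀ y : W.X1, x = y → c = .inl y) ∧
      ∀ j z, ‖z‖ < 1 → x = W.fc j z → c = .inr (j, z) := by
    intro x
    rcases W.cases2 x with h | ⟨j, z, hz, rfl⟩
    · exact ⟨.inl ⟨x, h⟩, fun y h' => congrArg _ (Subtype.ext h'),
        fun j z hz h' => (W.fc_not_mem_X1 j hz (h' ▸ h)).elim⟩
    · refine ⟨.inr (j, z), fun y h => (W.fc_not_mem_X1 j hz (h ▸ y.2)).elim, fun j' z' hz' h => ?_⟩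
      obtain ⟨rfl, rfl⟩ := W.fc_eq hz' h
      rfl
  choose co h1 h2 using this
  exact ⟨co, fun v => h1 _ v rfl, fun e s hs => h2 _ e s hs rfl⟩

/-- cell coordinates -/
noncomputable def co2 : X → W.X1 ⊕ (W.Fc × ℂ) := W.exists_co2.choose

theorem co2_X1 (x : W.X1) : W.co2 x = .inl x := W.exists_co2.choose_spec.1 x

theorem co2_mem {x : X} (h : x ∈ W.X1) : W.co2 x = .inl ⟨x, h⟩ := W.co2_X1 ⟨x, h⟩

theorem co2_fc (j : W.Fc) {z : ℂ} (hz : ‖z‖ < 1) : W.co2 (W.fc j z) = .inr (j, z) :=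
  W.exists_co2.choose_spec.2 j z hz

/-- the expanding homotopy -/
noncomputable def h2 (u : I) (x : X) : X :=
  (W.co2 x).elim Subtype.val fun p => W.fc p.1 (((1 + u : ℝ) : ℂ) * p.2)

theorem h2_mem (u : I) {x : X} (h : x ∈ W.X1) : W.h2 u x = x := by simp [h2, W.co2_mem h]

theorem h2_fc (u : I) (j : W.Fc) (z : ℂ) :
    W.h2 u (W.fc j z) = W.fc j (((1 + u : ℝ) : ℂ) * z) := by
  by_cases hz : ‖z‖ < 1
  · simp [h2, W.co2_fc j hz]
  · have hz' := not_lt.1 hz
    rw [W.h2_mem u (W.fc_mem_X1 j hz'), W.fc_smul j hz' (by nlinarith [u.2.1])]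

theorem continuous_h2 : Continuous fun p : I × X => W.h2 p.1 p.2 := by
  have hx : ∀ x, Continuous fun u => W.h2 u x := by
    intro x
    rcases W.cases2 x with h | ⟨j, z, -, rfl⟩
    · simp only [W.h2_mem _ h]; exact continuous_const
    · simp only [h2_fc]; fun_prop
  let G : X → C(I, X) := fun x => ⟨_, hx x⟩
  have hG : Continuous G := W.continuous2 G (fun e => by
    refine ContinuousMap.continuous_of_continuous_uncurry _ ?_
    change Continuous fun p : ℝ × I => W.h2 p.2 (W.ed e p.1)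
    simp only [W.h2_mem _ (W.ed_mem e _)]; fun_prop) fun j => by
    refine ContinuousMap.continuous_of_continuous_uncurry _ ?_
    change Continuous fun p : ℂ × I => W.h2 p.2 (W.fc j p.1)
    simp only [h2_fc]; fun_prop
  exact (ContinuousMap.continuous_uncurry_of_continuous ⟨G, hG⟩).comp continuous_swap

/-- the expanding homotopy, bundled -/
noncomputable def H2 : (ContinuousMap.id X).Homotopy
    ⟨W.h2 1, W.continuous_h2.comp (Continuous.prodMk_right 1)⟩ where
  toFun p := W.h2 p.1 p.2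
  continuous_toFun := W.continuous_h2
  map_zero_left x := by
    rcases W.cases2 x with h | ⟨j, z, -, rfl⟩
    · simp [W.h2_mem _ h]
    · simp [h2_fc]
  map_one_left _ := rfl

/-- neighbourhood of the one-skeleton -/
def O' : Set X := {x | ∀ j z, ‖z‖ ≤ 1 / 2 → x ≠ W.fc j z}

/-- an open face -/
def Oj (j : W.Fc) : Set X := W.fc j '' {z | ‖z‖ < 1}

theorem fc_mem_O' (j : W.Fc) {z : ℂ} : W.fc j z ∈ W.O' ↔ 1 / 2 < ‖z‖ := by
  constructor
  · intro h
    by_contra hs
    exact h j z (not_lt.1 hs) rfl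
  · intro hs e' s' hs' h
    obtain ⟨-, rfl⟩ := W.fc_eq (by linarith) h
    linarith

theorem mem_O'_of_X1 {x : X} (h : x ∈ W.X1) : x ∈ W.O' :=
  fun j _ hz h' => W.fc_not_mem_X1 j (by linarith) (h' ▸ h)

theorem isOpen_O' : IsOpen W.O' := by
  refine W.isOpen2 _ (fun e => ?_) fun j => ?_
  · convert isOpen_univ using 1
    exact eq_univ_of_forall fun s => W.mem_O'_of_X1 (W.ed_mem e s)
  · have : W.fc j ⁻¹' W.O' = {s | 1 / 2 < ‖s‖} := by
      ext s; exact W.fc_mem_O' j
    rw [this]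
    exact isOpen_lt continuous_const continuous_norm

theorem isOpen_Oj (j : W.Fc) : IsOpen (W.Oj j) :=
  W.isOpen_image_fc j (isOpen_lt continuous_norm continuous_const) fun _ h => h

/-- the attaching map in angular coordinate -/
noncomputable def att (j : W.Fc) : C(ℝ, W.X1) :=
  ⟨fun θ => ⟨W.fc j (exp (θ * Complex.I)), W.fc_mem_X1 j (by rw [norm_exp_ofReal_mul_I])⟩,
    Continuous.subtype_mk (by fun_prop) _⟩

theorem att_val (j : W.Fc) (θ : ℝ) : (W.att j θ : X) = W.fc j (exp (θ * Complex.I)) := rfl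

/-- radial retraction to the one-skeleton -/
noncomputable def rr (x : X) : W.X1 := (W.co2 x).elim id fun p => W.att p.1 (arg p.2)

theorem rr_X1 (x : W.X1) : W.rr x = x := by simp [rr, co2_X1]

theorem fc_eq_att (j : W.Fc) {z : ℂ} (hz : 1 ≤ ‖z‖) : W.fc j z = W.att j (arg z) := by
  have := W.fc_smul j (z := exp (arg z * Complex.I)) (by rw [norm_exp_ofReal_mul_I]) (c := ‖z‖)
    (by rwa [norm_exp_ofReal_mul_I, mul_one])
  rw [norm_mul_exp_arg_mul_I] at this
  rw [this, att_val]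

theorem rr_fc (j : W.Fc) (z : ℂ) : W.rr (W.fc j z) = W.att j (arg z) := by
  by_cases hz : ‖z‖ < 1
  · simp [rr, W.co2_fc j hz]
  · rw [W.fc_eq_att j (not_lt.1 hz), rr_X1]

theorem rr_eq_h2 {x : X} (hx : x ∈ W.O') : (W.rr x : X) = W.h2 1 x := by
  rcases W.cases2 x with h | ⟨j, z, -, rfl⟩
  · rw [W.h2_mem _ h]
    exact congrArg Subtype.val (W.rr_X1 ⟨x, h⟩)
  · have h := (W.fc_mem_O' j).1 hx
    rw [rr_fc, h2_fc, W.fc_eq_att j (z := _ * z) (by
      rw [norm_mul, norm_real, Real.norm_of_nonneg (by simp)]; simp; linarith),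
      arg_real_mul _ (by simp)]

theorem continuousOn_rr : ContinuousOn W.rr W.O' := by
  rw [Topology.IsInducing.subtypeVal.continuousOn_iff]
  exact (W.continuous_h2.comp (Continuous.prodMk_right 1)).continuousOn.congr
    fun x hx => W.rr_eq_h2 hx

/-- the face coordinate -/
noncomputable def cz (x : X) : ℂ := (W.co2 x).elim (fun _ => 0) Prod.snd

theorem cz_fc (j : W.Fc) {z : ℂ} (hz : ‖z‖ < 1) : W.cz (W.fc j z) = z := by
  simp [cz, W.co2_fc j hz]

theorem continuousOn_cz (j : W.Fc) : ContinuousOn W.cz (W.Oj j) := by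
  rw [continuousOn_open_iff (W.isOpen_Oj j)]
  intro U hU
  convert W.isOpen_image_fc j (U := {s | ‖s‖ < 1} ∩ U)
    ((isOpen_lt continuous_norm continuous_const).inter hU) (fun _ h => h.1) using 1
  ext x
  constructor
  · rintro ⟨⟨s, hs, rfl⟩, h⟩
    exact ⟨s, ⟨hs, by rwa [mem_preimage, W.cz_fc j hs] at h⟩, rfl⟩
  · rintro ⟨s, ⟨hs, h⟩, rfl⟩
    exact ⟨⟨s, hs, rfl⟩, by rwa [mem_preimage, W.cz_fc j hs]⟩

theorem att_periodic (j : W.Fc) (θ : ℝ) : W.att j (θ + 2 * Real.pi) = W.att j θ := by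
  apply Subtype.ext
  rw [att_val, att_val]
  push_cast
  rw [add_mul, exp_add, exp_two_pi_mul_I, mul_one]

/-- the boundary loop of a face -/
noncomputable def bl (j : W.Fc) : Path (W.att j 0) (W.att j 0) where
  toFun u := W.att j (2 * Real.pi * u)
  continuous_toFun := by fun_prop
  source' := by simp
  target' := by simpa using W.att_periodic j 0

/-- the relator of a face -/
noncomputable def rel (j : W.Fc) : FreeGroup W.Ed := W.mu1.val (W.bl j)

/-- normal closure of the relators -/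
def N : Subgroup (FreeGroup W.Ed) := Subgroup.normalClosure (range W.rel)

instance : W.N.Normal := Subgroup.normalClosure_normal

theorem exists_att_potential (j : W.Fc) : ∃ f : ℝ → FreeGroup W.Ed,
    (∀ {x y : W.X1} (q : Path x y) (γ : I → ℝ), Continuous γ →
      (∀ u, q u = W.att j (γ u)) → W.mu1.val q = f (γ 0) * (f (γ 1))⁻¹) ∧
    ∀ θ θ' : ℝ, exp (θ * Complex.I) = exp (θ' * Complex.I) →
      (QuotientGroup.mk (f θ) : FreeGroup W.Ed ⧸ W.N) = QuotientGroup.mk (f θ') := by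
  obtain ⟨f, hf0, hf⟩ := (W.mu1.comap (W.att j)).exists_potential 0
  have h1 : ∀ {x y : W.X1} (q : Path x y) (γ : I → ℝ), Continuous γ →
      (∀ u, q u = W.att j (γ u)) → W.mu1.val q = f (γ 0) * (f (γ 1))⁻¹ := by
    intro x y q γ hγ h
    rw [← hf _ _ (⟨⟨γ, hγ⟩, rfl, rfl⟩ : Path (γ 0) (γ 1)), PathFun.comap_val]
    exact W.mu1.congr _ _ h
  refine ⟨f, h1, ?_⟩
  have hr : W.rel j = (f (2 * Real.pi))⁻¹ := by
    rw [rel, h1 (W.bl j) (fun u => 2 * Real.pi * u) (by fun_prop) fun u => rfl]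
    simp [hf0]
  have hper : Function.Periodic
      (fun θ => (QuotientGroup.mk (f θ) : FreeGroup W.Ed ⧸ W.N)) (2 * Real.pi) := by
    intro θ
    let q : Path (W.att j θ) (W.att j 0) :=
      ⟨⟨fun u => W.att j ((1 - u) * θ), by fun_prop⟩, by simp, by simp⟩
    have e1 := h1 q (fun u => (1 - u) * θ) (by fun_prop) fun u => rfl
    have e2 := h1 q (fun u => (1 - u) * θ + 2 * Real.pi) (by fun_prop)
      fun u => (W.att_periodic j _).symm
    rw [e1] at e2
    simp only [Icc.coe_zero, sub_zero, one_mul, Icc.coe_one, sub_self, zero_mul, zero_add, hf0,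
      inv_one, mul_one] at e2
    have hN : (QuotientGroup.mk (W.rel j) : FreeGroup W.Ed ⧸ W.N) = 1 :=
      (QuotientGroup.eq_one_iff _).2 (Subgroup.subset_normalClosure ⟨j, rfl⟩)
    change (QuotientGroup.mk (f _) : FreeGroup W.Ed ⧸ W.N) = QuotientGroup.mk (f θ)
    rw [e2, ← hr, QuotientGroup.mk_mul, hN, mul_one]
  intro θ θ' h
  obtain ⟨n, hn⟩ := exp_eq_exp_iff_exists_int.1 h
  have : θ = θ' + n * (2 * Real.pi) := by
    have h2 : ((θ : ℂ)) = θ' + n * (2 * Real.pi) := by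
      apply mul_right_cancel₀ Complex.I_ne_zero
      rw [hn]; ring
    exact_mod_cast h2
  rw [this]
  exact (hper.int_mul n) θ'

/-- chosen potentials along attaching maps -/
noncomputable def fa (j : W.Fc) : ℝ → FreeGroup W.Ed := (W.exists_att_potential j).choose

/-- open cover of the complex -/
def O2 : Option W.Ed ⊕ W.Fc → Set X
  | .inl i => W.O' ∩ W.rr ⁻¹' W.O1 i
  | .inr j => W.Oj j

theorem isOpen_O2 : ∀ i, IsOpen (W.O2 i)
  | .inl i => W.continuousOn_rr.isOpen_inter_preimage W.isOpen_O' (W.isOpen_O1 i)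
  | .inr j => W.isOpen_Oj j

theorem cover_O2 (x : X) : ∃ i, x ∈ W.O2 i := by
  rcases W.cases2 x with h | ⟨j, z, hz, rfl⟩
  · obtain ⟨i, hi⟩ := W.cover_O1 (W.rr x)
    exact ⟨.inl i, W.mem_O'_of_X1 h, hi⟩
  · exact ⟨.inr j, z, hz, rfl⟩

/-- local gauges -/
noncomputable def t2 : Option W.Ed ⊕ W.Fc → X → FreeGroup W.Ed ⧸ W.N
  | .inl i, x => QuotientGroup.mk (W.t1 i (W.rr x))
  | .inr j, x => QuotientGroup.mk (W.fa j (arg (W.cz x)))

theorem t2_mixed (i : Option W.Ed) (j : W.Fc) (x : X) (hi : x ∈ W.O2 (.inl i))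
    (hj : x ∈ W.O2 (.inr j)) :
    ∀ᶠ y in 𝓝 x, (W.t2 (.inl i) y)⁻¹ * W.t2 (.inr j) y = (W.t2 (.inl i) x)⁻¹ * W.t2 (.inr j) x := by
  obtain ⟨z₀, hz₀, rfl⟩ := hj
  obtain ⟨hi1, hi2⟩ := hi
  have hz1 := (W.fc_mem_O' j).1 hi1
  have hz0 : z₀ ≠ 0 := by rintro rfl; norm_num at hz1
  rw [mem_preimage, rr_fc] at hi2
  obtain ⟨hf, hf'⟩ := (W.exists_att_potential j).choose_spec
  refine W.eventually_nhds_fc j hz₀ ?_
  obtain ⟨ε, hε, hball⟩ := Metric.isOpen_iff.1
    ((W.isOpen_O1 i).preimage (W.att j).continuous) (arg z₀) hi2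
  have hθ : ContinuousAt (fun z => arg z₀ + arg (z / z₀)) z₀ := by
    refine continuousAt_const.add (ContinuousAt.comp (g := arg) ?_ (by fun_prop))
    rw [div_self hz0]
    exact continuousAt_arg (by simp)
  have hθ' := hθ.eventually (Metric.ball_mem_nhds _ hε)
  filter_upwards [hθ', (isOpen_lt continuous_norm continuous_const).mem_nhds hz₀,
    isOpen_ne.mem_nhds hz0] with z h1 h2 h3
  simp only [div_self hz0, arg_one, add_zero] at h1
  set θ := arg z₀ + arg (z / z₀) with hθdef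
  have hexp : exp (arg z * Complex.I) = exp (θ * Complex.I) := by
    have hn0 : (‖z₀‖ : ℂ) ≠ 0 := by exact_mod_cast norm_ne_zero_iff.2 hz0
    have hn1 : (‖z‖ : ℂ) ≠ 0 := by exact_mod_cast norm_ne_zero_iff.2 h3
    have e1 := norm_mul_exp_arg_mul_I z
    have e2 := norm_mul_exp_arg_mul_I z₀
    have e3 := norm_mul_exp_arg_mul_I (z / z₀)
    rw [norm_div] at e3
    push_cast at e3
    rw [hθdef]
    push_cast
    rw [add_mul, exp_add]
    apply mul_left_cancel₀ hn1
    rw [e1]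
    calc z = z₀ * (z / z₀) := by field_simp
      _ = (‖z₀‖ * exp (arg z₀ * Complex.I)) * (‖z‖ / ‖z₀‖ * exp (arg (z / z₀) * Complex.I)) := by
        rw [e2, e3]
      _ = _ := by field_simp
  have hatt : W.att j (arg z) = W.att j θ := Subtype.ext (by rw [att_val, att_val, hexp])
  let q : Path (W.att j (arg z₀)) (W.att j θ) :=
    ⟨⟨fun u => W.att j ((1 - u) * arg z₀ + u * θ), by fun_prop⟩, by simp, by simp⟩
  have e1 := hf q (fun u => (1 - u) * arg z₀ + u * θ) (by fun_prop) fun u => rfl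
  have e2 := W.mu1_small i q fun u => hball (by
    rw [Real.dist_eq] at h1
    rw [Metric.mem_ball, Real.dist_eq]
    have : (1 - u) * arg z₀ + u * θ - arg z₀ = u * (θ - arg z₀) := by ring
    rw [this, abs_mul, abs_of_nonneg u.2.1]
    nlinarith [u.2.1, u.2.2, abs_nonneg (θ - arg z₀)])
  rw [e1] at e2
  simp only [Icc.coe_zero, sub_zero, one_mul, Icc.coe_one, sub_self, zero_mul, zero_add,
    add_zero] at e2
  simp only [t2, rr_fc, W.cz_fc j h2, W.cz_fc j hz₀, hatt, fa]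
  rw [hf' _ _ hexp, ← QuotientGroup.mk_inv, ← QuotientGroup.mk_mul, ← QuotientGroup.mk_inv,
    ← QuotientGroup.mk_mul]
  congr 1
  rw [eq_mul_inv_iff_mul_eq] at e2
  rw [← e2]
  group

theorem t2_cocycle (i j : Option W.Ed ⊕ W.Fc) (x : X) (hi : x ∈ W.O2 i) (hj : x ∈ W.O2 j) :
    ∀ᶠ y in 𝓝 x, (W.t2 i y)⁻¹ * W.t2 j y = (W.t2 i x)⁻¹ * W.t2 j x := by
  rcases i with i | i <;> rcases j with j | j
  · have hc : ContinuousAt W.rr x := W.continuousOn_rr.continuousAt (W.isOpen_O'.mem_nhds hi.1)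
    filter_upwards [hc.eventually (W.t1_cocycle i j _ hi.2 hj.2)] with y hy
    simp only [t2, ← QuotientGroup.mk_inv, ← QuotientGroup.mk_mul, hy]
  · exact W.t2_mixed i j x hi hj
  · filter_upwards [W.t2_mixed j i x hj hi] with y hy
    rw [← inv_inj]
    simpa using hy
  · obtain ⟨s, hs, rfl⟩ := hi
    obtain ⟨s', hs', h⟩ := hj
    obtain ⟨rfl, -⟩ := W.fc_eq hs h
    simp

/-- van Kampen: the word map extends over the two-cells modulo the relators -/
theorem exists_mu2 : ∃ μ : PathFun X (FreeGroup W.Ed ⧸ W.N), ∀ {x y : W.X1} (q : Path x y),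
    μ.val (q.map continuous_subtype_val) = QuotientGroup.mk (W.mu1.val q) := by
  obtain ⟨μ, hμ⟩ := exists_pathFun_of_cocycle W.O2 W.isOpen_O2 W.cover_O2 W.t2 W.t2_cocycle
  refine ⟨μ, fun q => ?_⟩
  refine PathFun.eq_of_cover W.O1 W.isOpen_O1 W.cover_O1
    (μ.comap ⟨Subtype.val, continuous_subtype_val⟩) (W.mu1.map (QuotientGroup.mk' W.N)) ?_ q
  intro i x y q hq
  rw [PathFun.comap_val, PathFun.map_val, W.mu1_small i q hq, hμ (.inl i)]
  · simp [t2, rr_X1]
  · intro s
    refine ⟨W.mem_O'_of_X1 (q s).2, ?_⟩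
    change W.rr (q s) ∈ W.O1 i
    rw [rr_X1]; exact hq s

/-- the track from a point to the one-skeleton -/
noncomputable def tr2 (x : X) : Path x (W.rr x) where
  toFun u := (W.co2 x).elim Subtype.val fun p =>
    W.fc p.1 ((1 - (u : ℝ) : ℂ) * p.2 + (u : ℝ) * exp (arg p.2 * Complex.I))
  continuous_toFun := by
    rcases W.co2 x with v | p
    · exact continuous_const
    · simp only [Sum.elim_inr]; fun_prop
  source' := by
    rcases W.cases2 x with h | ⟨j, z, hz, rfl⟩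
    · simp [W.co2_mem h]
    · simp [W.co2_fc j hz]
  target' := by
    rcases W.cases2 x with h | ⟨j, z, hz, rfl⟩
    · simp [W.co2_mem h, rr]
    · simp [W.co2_fc j hz, rr_fc, att_val]

theorem tr2_mem {x : X} (h : x ∈ W.X1) (u : I) : W.tr2 x u = x := by
  change (W.co2 _).elim Subtype.val _ = _
  simp [W.co2_mem h]

theorem tr2_fc (j : W.Fc) {z : ℂ} (hz : ‖z‖ < 1) (u : I) : W.tr2 (W.fc j z) u =
    W.fc j ((1 - (u : ℝ) : ℂ) * z + (u : ℝ) * exp (arg z * Complex.I)) := by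
  change (W.co2 _).elim Subtype.val _ = _
  simp [W.co2_fc j hz]

theorem exists_face_potential {K : Type*} [Group K] (κ : PathFun X K) (j : W.Fc) :
    ∃ f : ℂ → K, ∀ {x y : X} (q : Path x y) (γ : I → ℂ), Continuous γ →
      (∀ u, q u = W.fc j (γ u)) → κ.val q = f (γ 0) * (f (γ 1))⁻¹ := by
  obtain ⟨f, -, hf⟩ := (κ.comap (W.fc j)).exists_potential 0
  refine ⟨f, fun q γ hγ h => ?_⟩
  rw [← hf _ _ (⟨⟨γ, hγ⟩, rfl, rfl⟩ : Path (γ 0) (γ 1)), PathFun.comap_val]
  exact κ.congr _ _ h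

/-- fullness: a path function takes on paths in the one-skeleton all the values it takes on paths
with end points in the one-skeleton -/
theorem exists_path_X1 {K : Type*} [Group K] (κ : PathFun X K) {x y : W.X1}
    (q : Path (x : X) (y : X)) :
    ∃ q' : Path x y, κ.val (q'.map continuous_subtype_val) = κ.val q := by
  have key : ∀ {x y : X} (q : Path x y), ∃ q' : Path (W.rr x) (W.rr y),
      κ.val (q'.map continuous_subtype_val) = (κ.val (W.tr2 x))⁻¹ * κ.val q * κ.val (W.tr2 y) := by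
    intro x y q
    refine path_induction (fun i : Option W.Fc => i.elim W.O' W.Oj)
      (fun i => by cases i; exacts [W.isOpen_O', W.isOpen_Oj _])
      (fun x => by
        rcases W.cases2 x with h | ⟨j, z, hz, rfl⟩
        exacts [⟨none, W.mem_O'_of_X1 h⟩, ⟨some j, z, hz, rfl⟩])
      (fun {x y} q => ∃ q' : Path (W.rr x) (W.rr y),
        κ.val (q'.map continuous_subtype_val) = (κ.val (W.tr2 x))⁻¹ * κ.val q * κ.val (W.tr2 y))
      ?_ ?_ ?_ q
    · rintro x y z p q ⟨p', hp⟩ ⟨q', hq⟩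
      refine ⟨p'.trans q', ?_⟩
      rw [Path.map_trans, κ.val_trans, κ.val_trans, hp, hq]
      group
    · rintro x y p q h ⟨p', hp⟩
      exact ⟨p', by rw [hp, κ.val_hom h]⟩
    · rintro (_ | j) x y q hq
      · have hev : ∀ x ∈ W.O', κ.val (W.H2.evalAt x) = κ.val (W.tr2 x) := by
          intro x hx
          rcases W.cases2 x with h | ⟨j, z, hz, rfl⟩
          · exact κ.congr _ _ fun u => (W.h2_mem u h).trans (W.tr2_mem h u).symm
          · obtain ⟨f, hf⟩ := W.exists_face_potential κ j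
            have h2 := (W.fc_mem_O' j).1 hx
            rw [hf _ (fun u : I => ((1 + u : ℝ) : ℂ) * z) (by fun_prop) fun u => W.h2_fc u j z,
              hf _ (fun u : I => (1 - (u : ℝ) : ℂ) * z + (u : ℝ) * exp (arg z * Complex.I))
                (by fun_prop) fun u => W.tr2_fc j hz u]
            have := hf (Path.refl (W.fc j (exp (arg z * Complex.I))))
              (fun u : I => (((1 - u) * (2 * ‖z‖) + u : ℝ) : ℂ) * exp (arg z * Complex.I))
              (by fun_prop) fun u => (W.fc_smul j (by rw [norm_exp_ofReal_mul_I]) (by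
                rw [norm_exp_ofReal_mul_I]; nlinarith [u.2.1, u.2.2])).symm
            rw [κ.val_refl, eq_comm, mul_inv_eq_one] at this
            have e : ((1 + ((1 : I) : ℝ) : ℝ) : ℂ) * z =
                (((1 - ((0 : I) : ℝ)) * (2 * ‖z‖) + ((0 : I) : ℝ) : ℝ) : ℂ) *
                  exp (arg z * Complex.I) := by
              simp only [Icc.coe_one, Icc.coe_zero]
              push_cast
              linear_combination (-2) * norm_mul_exp_arg_mul_I z
            rw [e, this]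
            simp
        let q' : Path (W.rr x) (W.rr y) :=
          ⟨⟨fun u => W.rr (q u), W.continuousOn_rr.comp_continuous q.continuous hq⟩,
            by simp, by simp⟩
        refine ⟨q', ?_⟩
        have h := κ.val_evalAt W.H2 q
        rw [hev x (q.source ▸ hq 0), hev y (q.target ▸ hq 1)] at h
        have h' : κ.val q = κ.val (W.tr2 x) * κ.val (q'.map continuous_subtype_val) *
            (κ.val (W.tr2 y))⁻¹ := by
          rw [κ.congr (q'.map continuous_subtype_val)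
            (q.map (W.continuous_h2.comp (Continuous.prodMk_right 1))) fun u => W.rr_eq_h2 (hq u)]
          exact h
        rw [h']
        group
      · obtain ⟨f, hf⟩ := W.exists_face_potential κ j
        have hγ : Continuous fun u => W.cz (q u) :=
          (W.continuousOn_cz j).comp_continuous q.continuous hq
        have hq' : ∀ u, q u = W.fc j (W.cz (q u)) := by
          intro u
          obtain ⟨s, hs, h⟩ := hq u
          rw [← h, W.cz_fc j hs]
        have e1 := hf q _ hγ hq'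
        rw [q.source, q.target] at e1
        obtain ⟨z, hz, rfl⟩ : x ∈ W.Oj j := q.source ▸ hq 0
        obtain ⟨z', hz', rfl⟩ : y ∈ W.Oj j := q.target ▸ hq 1
        rw [W.cz_fc j hz, W.cz_fc j hz'] at e1
        let q' : Path (W.rr (W.fc j z)) (W.rr (W.fc j z')) :=
          ⟨⟨fun u => W.att j ((1 - u) * arg z + u * arg z'), by fun_prop⟩,
            by simp [rr_fc], by simp [rr_fc]⟩
        refine ⟨q', ?_⟩
        rw [e1, hf (W.tr2 _) (fun u : I => (1 - (u : ℝ) : ℂ) * z + (u : ℝ) * exp (arg z * Complex.I))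
            (by fun_prop) fun u => W.tr2_fc j hz u,
          hf (W.tr2 _) (fun u : I => (1 - (u : ℝ) : ℂ) * z' + (u : ℝ) * exp (arg z' * Complex.I))
            (by fun_prop) fun u => W.tr2_fc j hz' u,
          hf _ (fun u : I => exp ((((1 - u) * arg z + u * arg z' : ℝ) : ℂ) * Complex.I))
            (by fun_prop) fun u => rfl]
        simp
  obtain ⟨q', hq'⟩ := key q
  rw [κ.val_const _ (W.tr2_mem x.2), κ.val_const _ (W.tr2_mem y.2), inv_one, one_mul,
    mul_one] at hq'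
  exact ⟨q'.cast (W.rr_X1 x).symm (W.rr_X1 y).symm, hq' ▸ κ.congr _ _ fun _ => rfl⟩

end W2

end Crest.Agent.Lib.CWComb
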