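import Crest.Agent.Lib.CWComb.W2
import Crest.Agent.Lib.CWComb.PathFun

/-! The one-skeleton of a `W2` complex: its fundamental groupoid is free on the edges. -/

set_option autoImplicit false

open Set unitInterval Topology Filter

namespace Crest.Agent.Lib.CWComb

namespace W2

variable {X : Type} [TopologicalSpace X] (W : W2 X)

/-- the one-skeleton -/
def X1 : Set X := {x | (∃ v, x = W.vx v) ∨ ∃ e s, |s| < 1 ∧ x = W.ed e s}

theorem ed_cases (e : W.Ed) (s : ℝ) :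
    |s| < 1 ∨ (s ≤ -1 ∧ W.ed e s = W.vx (W.src e)) ∨ (1 ≤ s ∧ W.ed e s = W.vx (W.tgt e)) := by
  by_cases h : |s| < 1
  · exact .inl h
  · rw [abs_lt, not_and_or, not_lt, not_lt] at h
    rcases h with h | h
    · exact .inr (.inl ⟨h, W.ed_le e s h⟩)
    · exact .inr (.inr ⟨h, W.ed_ge e s h⟩)

theorem ed_mem (e : W.Ed) (s : ℝ) : W.ed e s ∈ W.X1 := by
  rcases W.ed_cases e s with h | ⟨-, h⟩ | ⟨-, h⟩
  · exact .inr ⟨e, s, h, rfl⟩
  · exact .inl ⟨_, h⟩
  · exact .inl ⟨_, h⟩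

/-- vertices as points of the one-skeleton -/
def vx1 (v : W.V) : W.X1 := ⟨W.vx v, .inl ⟨v, rfl⟩⟩

/-- edges as maps into the one-skeleton -/
def ed1 (e : W.Ed) : C(ℝ, W.X1) := ⟨fun s => ⟨W.ed e s, W.ed_mem e s⟩, (W.ed e).continuous.subtype_mk _⟩

theorem cases1 (x : W.X1) : (∃ v, x = W.vx1 v) ∨ ∃ e s, |s| < 1 ∧ x = W.ed1 e s := by
  rcases x.2 with ⟨v, h⟩ | ⟨e, s, hs, h⟩
  · exact .inl ⟨v, Subtype.ext h⟩
  · exact .inr ⟨e, s, hs, Subtype.ext h⟩

theorem ed1_le (e : W.Ed) {s : ℝ} (h : s ≤ -1) : W.ed1 e s = W.vx1 (W.src e) :=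
  Subtype.ext (W.ed_le e s h)

theorem ed1_ge (e : W.Ed) {s : ℝ} (h : 1 ≤ s) : W.ed1 e s = W.vx1 (W.tgt e) :=
  Subtype.ext (W.ed_ge e s h)

theorem vx1_inj {v v' : W.V} (h : W.vx1 v = W.vx1 v') : v = v' :=
  W.vx_inj (congrArg Subtype.val h)

theorem vx1_ne (v : W.V) (e : W.Ed) {s : ℝ} (hs : |s| < 1) : W.vx1 v ≠ W.ed1 e s :=
  fun h => W.vx_ne_ed v e s hs (congrArg Subtype.val h)

/-- a point of a closed edge that equals a point of an open edge -/
theorem ed1_eq {e e' : W.Ed} {s s' : ℝ} (hs' : |s'| < 1) (h : W.ed1 e s = W.ed1 e' s') :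
    e = e' ∧ s = s' := by
  rcases W.ed_cases e s with hs | ⟨hs, -⟩ | ⟨hs, -⟩
  · exact W.ed_inj e e' s s' hs hs' (congrArg Subtype.val h)
  · exact (W.vx1_ne _ e' hs' ((W.ed1_le e hs).symm.trans h)).elim
  · exact (W.vx1_ne _ e' hs' ((W.ed1_ge e hs).symm.trans h)).elim

theorem isClosed1 (A : Set W.X1) (h : ∀ e, IsClosed (W.ed1 e ⁻¹' A)) : IsClosed A := by
  have h1 : IsClosed (Subtype.val '' A) := by
    refine W.closed1 _ (by rintro _ ⟨x, -, rfl⟩; exact x.2) fun e => ?_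
    convert h e using 1
    ext s
    exact ⟨fun ⟨x, hx, hx'⟩ => by
      have : x = W.ed1 e s := Subtype.ext hx'
      rwa [this] at hx, fun hs => ⟨_, hs, rfl⟩⟩
  have := h1.preimage (continuous_subtype_val (p := fun x => x ∈ W.X1))
  rwa [preimage_image_eq _ Subtype.val_injective] at this

theorem isOpen1 (A : Set W.X1) (h : ∀ e, IsOpen (W.ed1 e ⁻¹' A)) : IsOpen A :=
  isClosed_compl_iff.1 (W.isClosed1 _ fun e => (h e).isClosed_compl)

theorem continuous1 {Z : Type*} [TopologicalSpace Z] (f : W.X1 → Z)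
    (h : ∀ e, Continuous (f ∘ W.ed1 e)) : Continuous f :=
  continuous_iff_isClosed.2 fun _ hs => W.isClosed1 _ fun e => hs.preimage (h e)

theorem isOpen_image_ed1 (e : W.Ed) {U : Set ℝ} (hU : IsOpen U) (hU1 : ∀ s ∈ U, |s| < 1) :
    IsOpen (W.ed1 e '' U) := by
  refine W.isOpen1 _ fun e' => ?_
  by_cases he : e' = e
  · subst he
    convert hU using 1
    ext s
    exact ⟨fun ⟨s', hs', h⟩ => (W.ed1_eq (hU1 s' hs') h.symm).2 ▸ hs', fun hs => ⟨s, hs, rfl⟩⟩
  · convert isOpen_empty using 1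
    ext s
    exact ⟨fun ⟨s', hs', h⟩ => he (W.ed1_eq (hU1 s' hs') h.symm).1, fun h => h.elim⟩

theorem isClosed_vertices (T : Set W.V) : IsClosed (W.vx1 '' T) := by
  refine W.isClosed1 _ fun e => ?_
  have : W.ed1 e ⁻¹' (W.vx1 '' T) =
      ({s | s ≤ -1} ∩ {_s | W.src e ∈ T}) ∪ ({s | 1 ≤ s} ∩ {_s | W.tgt e ∈ T}) := by
    ext s
    constructor
    · rintro ⟨v, hv, h⟩
      rcases W.ed_cases e s with hs | ⟨hs, -⟩ | ⟨hs, -⟩
      · exact (W.vx1_ne v e hs h).elim
      · exact .inl ⟨hs, by rwa [W.vx1_inj (h.trans (W.ed1_le e hs))] at hv⟩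
      · exact .inr ⟨hs, by rwa [W.vx1_inj (h.trans (W.ed1_ge e hs))] at hv⟩
    · rintro (⟨hs, hv⟩ | ⟨hs, hv⟩)
      · exact ⟨_, hv, (W.ed1_le e hs).symm⟩
      · exact ⟨_, hv, (W.ed1_ge e hs).symm⟩
  rw [this]
  exact ((isClosed_le continuous_id continuous_const).inter isClosed_const).union
    ((isClosed_le continuous_const continuous_id).inter isClosed_const)

theorem const_of_vertices (γ : I → W.X1) (hγ : Continuous γ) (h : ∀ u, ∃ v, γ u = W.vx1 v)
    (u : I) : γ u = γ 0 := by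
  obtain ⟨v, hv⟩ := h 0
  have hc : IsClopen (γ ⁻¹' (W.vx1 '' {v})) := by
    refine ⟨(W.isClosed_vertices _).preimage hγ, ?_⟩
    have : γ ⁻¹' (W.vx1 '' {v}) = (γ ⁻¹' (W.vx1 '' {v}ᶜ))ᶜ := by
      ext u
      obtain ⟨v', hv'⟩ := h u
      constructor
      · rintro ⟨_, rfl, h1⟩ ⟨v'', h2, h3⟩
        exact h2 (W.vx1_inj (h3.trans h1.symm))
      · intro h1
        by_cases hvv : v' = v
        · exact ⟨v, rfl, hvv ▸ hv'.symm⟩
        · exact (h1 ⟨v', hvv, hv'.symm⟩).elim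
    rw [this]
    exact ((W.isClosed_vertices _).preimage hγ).isOpen_compl
  have := hc.eq_univ ⟨0, v, rfl, hv.symm⟩
  obtain ⟨_, rfl, h1⟩ : u ∈ γ ⁻¹' (W.vx1 '' {v}) := this ▸ mem_univ u
  rw [← h1, hv]

/-- cell coordinates of a point of the one-skeleton -/
theorem exists_co : ∃ co : W.X1 → W.V ⊕ (W.Ed × ℝ), (∀ v, co (W.vx1 v) = .inl v) ∧
    ∀ e s, |s| < 1 → co (W.ed1 e s) = .inr (e, s) := by
  have : ∀ x : W.X1, ∃ c : W.V ⊕ (W.Ed × ℝ), (∀ v, x = W.vx1 v → c = .inl v) ∧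
      ∀ e s, |s| < 1 → x = W.ed1 e s → c = .inr (e, s) := by
    intro x
    rcases W.cases1 x with ⟨v, rfl⟩ | ⟨e, s, hs, rfl⟩
    · exact ⟨.inl v, fun v' h => by rw [W.vx1_inj h], fun e s hs h => (W.vx1_ne v e hs h).elim⟩
    · refine ⟨.inr (e, s), fun v h => (W.vx1_ne v e hs h.symm).elim, fun e' s' hs' h => ?_⟩
      obtain ⟨rfl, rfl⟩ := W.ed1_eq hs' h
      rfl
  choose co h1 h2 using this
  exact ⟨co, fun v => h1 _ v rfl, fun e s hs => h2 _ e s hs rfl⟩

/-- cell coordinates -/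
noncomputable def co : W.X1 → W.V ⊕ (W.Ed × ℝ) := W.exists_co.choose

theorem co_vx (v : W.V) : W.co (W.vx1 v) = .inl v := W.exists_co.choose_spec.1 v

theorem co_ed (e : W.Ed) {s : ℝ} (hs : |s| < 1) : W.co (W.ed1 e s) = .inr (e, s) :=
  W.exists_co.choose_spec.2 e s hs

/-- neighbourhood of the vertices -/
def O0 : Set W.X1 := {x | ∀ e s, |s| ≤ 1 / 2 → x ≠ W.ed1 e s}

/-- an open edge -/
def Oe (e : W.Ed) : Set W.X1 := W.ed1 e '' {s | |s| < 1}

theorem ed1_mem_O0 (e : W.Ed) {s : ℝ} : W.ed1 e s ∈ W.O0 ↔ 1 / 2 < |s| := by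
  constructor
  · intro h
    by_contra hs
    exact h e s (not_lt.1 hs) rfl
  · intro hs e' s' hs' h
    obtain ⟨-, rfl⟩ := W.ed1_eq (by linarith) h
    linarith

theorem vx1_mem_O0 (v : W.V) : W.vx1 v ∈ W.O0 := fun e _ hs => W.vx1_ne v e (by linarith)

theorem isOpen_O0 : IsOpen W.O0 := by
  refine W.isOpen1 _ fun e => ?_
  have : W.ed1 e ⁻¹' W.O0 = {s | 1 / 2 < |s|} := by
    ext s; exact W.ed1_mem_O0 e
  rw [this]
  exact isOpen_lt continuous_const continuous_abs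

theorem isOpen_Oe (e : W.Ed) : IsOpen (W.Oe e) :=
  W.isOpen_image_ed1 e (isOpen_lt continuous_abs continuous_const) fun _ h => h

/-- the standard open cover of the one-skeleton -/
def O1 : Option W.Ed → Set W.X1
  | none => W.O0
  | some e => W.Oe e

theorem isOpen_O1 : ∀ i, IsOpen (W.O1 i)
  | none => W.isOpen_O0
  | some e => W.isOpen_Oe e

theorem cover_O1 (x : W.X1) : ∃ i, x ∈ W.O1 i := by
  rcases W.cases1 x with ⟨v, rfl⟩ | ⟨e, s, hs, rfl⟩
  · exact ⟨none, W.vx1_mem_O0 v⟩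
  · exact ⟨some e, s, hs, rfl⟩

/-- the edge coordinate -/
noncomputable def cs (x : W.X1) : ℝ := (W.co x).elim (fun _ => 0) Prod.snd

theorem cs_ed (e : W.Ed) {s : ℝ} (hs : |s| < 1) : W.cs (W.ed1 e s) = s := by
  simp [cs, W.co_ed e hs]

theorem continuousOn_cs (e : W.Ed) : ContinuousOn W.cs (W.Oe e) := by
  rw [continuousOn_open_iff (W.isOpen_Oe e)]
  intro U hU
  convert W.isOpen_image_ed1 e (U := {s | |s| < 1} ∩ U)
    ((isOpen_lt continuous_abs continuous_const).inter hU) (fun _ h => h.1) using 1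
  ext x
  constructor
  · rintro ⟨⟨s, hs, rfl⟩, h⟩
    exact ⟨s, ⟨hs, by rwa [mem_preimage, W.cs_ed e hs] at h⟩, rfl⟩
  · rintro ⟨s, ⟨hs, h⟩, rfl⟩
    exact ⟨⟨s, hs, rfl⟩, by rwa [mem_preimage, W.cs_ed e hs]⟩

open Classical in
/-- local gauges -/
noncomputable def t1 : Option W.Ed → W.X1 → FreeGroup W.Ed
  | none, _ => 1
  | some e, x => if 0 < W.cs x then (FreeGroup.of e)⁻¹ else 1

theorem t1_eventually (e : W.Ed) (x : W.X1) (h0 : x ∈ W.O0) (he : x ∈ W.Oe e) :
    ∀ᶠ y in 𝓝 x, W.t1 (some e) y = W.t1 (some e) x := by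
  have hc : ContinuousAt W.cs x := (W.continuousOn_cs e).continuousAt ((W.isOpen_Oe e).mem_nhds he)
  obtain ⟨s, hs, rfl⟩ := he
  have h1 := (W.ed1_mem_O0 e).1 h0
  have h2 : W.cs (W.ed1 e s) ≠ 0 := by
    rw [W.cs_ed e hs]; rintro rfl; norm_num at h1
  rcases lt_or_gt_of_ne h2 with h | h
  · filter_upwards [hc.eventually (gt_mem_nhds h)] with y hy
    simp only [t1, if_neg (not_lt.2 hy.le), if_neg (not_lt.2 h.le)]
  · filter_upwards [hc.eventually (lt_mem_nhds h)] with y hy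
    simp only [t1, if_pos hy, if_pos h]

theorem t1_cocycle (i j : Option W.Ed) (x : W.X1) (hi : x ∈ W.O1 i) (hj : x ∈ W.O1 j) :
    ∀ᶠ y in 𝓝 x, (W.t1 i y)⁻¹ * W.t1 j y = (W.t1 i x)⁻¹ * W.t1 j x := by
  rcases i with _ | e <;> rcases j with _ | e'
  · simp [t1]
  · filter_upwards [W.t1_eventually e' x hi hj] with y hy
    rw [hy]; rfl
  · filter_upwards [W.t1_eventually e x hj hi] with y hy
    rw [hy]; rfl
  · obtain ⟨s, hs, rfl⟩ := hi
    obtain ⟨s', hs', h⟩ := hj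
    obtain ⟨rfl, -⟩ := W.ed1_eq hs h
    simp

/-- the word read along a path in the one-skeleton -/
noncomputable def mu1 : PathFun W.X1 (FreeGroup W.Ed) :=
  (exists_pathFun_of_cocycle W.O1 W.isOpen_O1 W.cover_O1 W.t1 W.t1_cocycle).choose

theorem mu1_small (i : Option W.Ed) {x y : W.X1} (p : Path x y) (h : ∀ s, p s ∈ W.O1 i) :
    W.mu1.val p = W.t1 i x * (W.t1 i y)⁻¹ :=
  (exists_pathFun_of_cocycle W.O1 W.isOpen_O1 W.cover_O1 W.t1 W.t1_cocycle).choose_spec i p h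

/-- potential of a path function along a closed edge -/
theorem exists_edge_potential {K : Type*} [Group K] (κ : PathFun W.X1 K) (e : W.Ed) :
    ∃ f : ℝ → K, (∀ {x y : W.X1} (q : Path x y) (γ : I → ℝ), Continuous γ →
      (∀ u, q u = W.ed1 e (γ u)) → κ.val q = f (γ 0) * (f (γ 1))⁻¹) ∧
      (∀ s, 1 ≤ s → f s = f 1) ∧ ∀ s, s ≤ -1 → f s = f (-1) := by
  obtain ⟨f, -, hf⟩ := (κ.comap (W.ed1 e)).exists_potential 0
  have h1 : ∀ {x y : W.X1} (q : Path x y) (γ : I → ℝ), Continuous γ →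
      (∀ u, q u = W.ed1 e (γ u)) → κ.val q = f (γ 0) * (f (γ 1))⁻¹ := by
    intro x y q γ hγ h
    rw [← hf _ _ (⟨⟨γ, hγ⟩, rfl, rfl⟩ : Path (γ 0) (γ 1)), PathFun.comap_val]
    exact κ.congr _ _ h
  refine ⟨f, h1, fun s hs => ?_, fun s hs => ?_⟩
  · have := h1 (Path.refl (W.vx1 (W.tgt e))) (fun u => (1 - u) * s + u) (by fun_prop) fun u =>
      (W.ed1_ge e (by nlinarith [u.2.1, u.2.2])).symm
    rw [κ.val_refl] at this
    simpa [eq_mul_inv_iff_mul_eq, eq_comm] using this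
  · have := h1 (Path.refl (W.vx1 (W.src e))) (fun u => (1 - u) * s - u) (by fun_prop) fun u =>
      (W.ed1_le e (by nlinarith [u.2.1, u.2.2])).symm
    rw [κ.val_refl] at this
    simpa [eq_mul_inv_iff_mul_eq, eq_comm] using this

/-- the characteristic path of an edge -/
def ep (e : W.Ed) : Path (W.vx1 (W.src e)) (W.vx1 (W.tgt e)) where
  toFun u := W.ed1 e (2 * u - 1)
  continuous_toFun := by fun_prop
  source' := W.ed1_le e (by simp)
  target' := W.ed1_ge e (by simp; norm_num)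

theorem mu1_ep (e : W.Ed) : W.mu1.val (W.ep e) = FreeGroup.of e := by
  obtain ⟨f, hf, -, -⟩ := W.exists_edge_potential W.mu1 e
  have seg : ∀ (i : Option W.Ed) (a b : ℝ), (∀ u : I, W.ed1 e ((1 - u) * a + u * b) ∈ W.O1 i) →
      f a * (f b)⁻¹ = W.t1 i (W.ed1 e a) * (W.t1 i (W.ed1 e b))⁻¹ := by
    intro i a b h
    let q : Path (W.ed1 e a) (W.ed1 e b) :=
      ⟨⟨fun u => W.ed1 e ((1 - u) * a + u * b), by fun_prop⟩, by simp, by simp⟩
    rw [← W.mu1_small i q h, hf q (fun u => (1 - u) * a + u * b) (by fun_prop) fun u => rfl]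
    simp
  have h1 := seg none (-1) (-3 / 4) fun u => (W.ed1_mem_O0 e).2 (by
    rw [lt_abs]; right; nlinarith [u.2.1, u.2.2])
  have h2 := seg (some e) (-3 / 4) (3 / 4) fun u => ⟨_, by
    rw [mem_ofPred_eq, abs_lt]; constructor <;> nlinarith [u.2.1, u.2.2], rfl⟩
  have h3 := seg none (3 / 4) 1 fun u => (W.ed1_mem_O0 e).2 (by
    rw [lt_abs]; left; nlinarith [u.2.1, u.2.2])
  have h4 := hf (W.ep e) (fun u => 2 * u - 1) (by fun_prop) fun u => rfl
  have c1 : W.cs (W.ed1 e (-3 / 4)) = -3 / 4 := W.cs_ed e (by rw [abs_lt]; constructor <;> norm_num)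
  have c2 : W.cs (W.ed1 e (3 / 4)) = 3 / 4 := W.cs_ed e (by rw [abs_lt]; constructor <;> norm_num)
  simp only [t1, c1, c2, inv_one, mul_one] at h1 h2 h3
  norm_num at h2 h4
  rw [h4, mul_inv_eq_one.1 h1, ← mul_inv_eq_one.1 h3, ← h2]
  norm_num

open Classical in
/-- the end of an edge nearest to the coordinate `s` -/
noncomputable def sg (s : ℝ) : ℝ := if 0 < s then 1 else -1

open Classical in
/-- the vertex associated with a point of the one-skeleton -/
noncomputable def vt (x : W.X1) : W.V :=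
  (W.co x).elim id fun p => if 0 < p.2 then W.tgt p.1 else W.src p.1

theorem vt_vx (v : W.V) : W.vt (W.vx1 v) = v := by simp [vt, co_vx]

/-- the track from a point to its vertex -/
noncomputable def tr (x : W.X1) : Path x (W.vx1 (W.vt x)) where
  toFun u := (W.co x).elim W.vx1 fun p => W.ed1 p.1 ((1 - u) * p.2 + u * sg p.2)
  continuous_toFun := by
    rcases W.co x with v | p
    · exact continuous_const
    · simp only [Sum.elim_inr]; fun_prop
  source' := by
    rcases W.cases1 x with ⟨v, rfl⟩ | ⟨e, s, hs, rfl⟩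
    · simp [co_vx]
    · simp [W.co_ed e hs]
  target' := by
    rcases W.cases1 x with ⟨v, rfl⟩ | ⟨e, s, hs, rfl⟩
    · simp [co_vx, vt]
    · by_cases h : 0 < s
      · simpa [W.co_ed e hs, vt, sg, h] using W.ed1_ge e le_rfl
      · simpa [W.co_ed e hs, vt, sg, h] using W.ed1_le e le_rfl

theorem tr_vx (v : W.V) (u : I) : W.tr (W.vx1 v) u = W.vx1 v := by
  change (W.co _).elim W.vx1 _ = _
  simp [co_vx]

theorem tr_ed (e : W.Ed) {s : ℝ} (hs : |s| < 1) (u : I) :
    W.tr (W.ed1 e s) u = W.ed1 e ((1 - u) * s + u * sg s) := by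
  change (W.co _).elim W.vx1 _ = _
  simp [W.co_ed e hs]

theorem val_tr_vx {K : Type*} [Group K] (κ : PathFun W.X1 K) (v : W.V) :
    κ.val (W.tr (W.vx1 v)) = 1 := κ.val_const _ (W.tr_vx v)

/-- the expanding homotopy of the one-skeleton -/
noncomputable def h1 (u : I) (x : W.X1) : W.X1 :=
  (W.co x).elim W.vx1 fun p => W.ed1 p.1 ((1 + u) * p.2)

theorem h1_vx (u : I) (v : W.V) : W.h1 u (W.vx1 v) = W.vx1 v := by simp [h1, co_vx]

theorem h1_ed (u : I) (e : W.Ed) (s : ℝ) : W.h1 u (W.ed1 e s) = W.ed1 e ((1 + u) * s) := by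
  rcases W.ed_cases e s with hs | ⟨hs, -⟩ | ⟨hs, -⟩
  · simp [h1, W.co_ed e hs]
  · rw [W.ed1_le e hs, h1_vx, W.ed1_le e (by nlinarith [u.2.1])]
  · rw [W.ed1_ge e hs, h1_vx, W.ed1_ge e (by nlinarith [u.2.1])]

theorem continuous_h1 : Continuous fun p : I × W.X1 => W.h1 p.1 p.2 := by
  have hx : ∀ x, Continuous fun u => W.h1 u x := by
    intro x
    rcases W.cases1 x with ⟨v, rfl⟩ | ⟨e, s, -, rfl⟩
    · simp only [h1_vx]; exact continuous_const
    · simp only [h1_ed]; fun_prop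
  let G : W.X1 → C(I, W.X1) := fun x => ⟨_, hx x⟩
  have hG : Continuous G := W.continuous1 G fun e => by
    refine ContinuousMap.continuous_of_continuous_uncurry _ ?_
    change Continuous fun p : ℝ × I => W.h1 p.2 (W.ed1 e p.1)
    simp only [h1_ed]; fun_prop
  exact (ContinuousMap.continuous_uncurry_of_continuous ⟨G, hG⟩).comp continuous_swap

/-- the expanding homotopy, bundled -/
noncomputable def H1 : (ContinuousMap.id W.X1).Homotopy
    ⟨W.h1 1, W.continuous_h1.comp (Continuous.prodMk_right 1)⟩ where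
  toFun p := W.h1 p.1 p.2
  continuous_toFun := W.continuous_h1
  map_zero_left x := by
    rcases W.cases1 x with ⟨v, rfl⟩ | ⟨e, s, -, rfl⟩
    · simp [h1_vx]
    · simp [h1_ed]
  map_one_left _ := rfl

/-- every path function on the one-skeleton is computed by the word map -/
theorem val_eq_lift {K : Type*} [Group K] (κ : PathFun W.X1 K) {x y : W.X1} (q : Path x y) :
    κ.val q = κ.val (W.tr x) * FreeGroup.lift (fun e => κ.val (W.ep e)) (W.mu1.val q) *
      (κ.val (W.tr y))⁻¹ := by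
  refine PathFun.eq_of_cover W.O1 W.isOpen_O1 W.cover_O1 κ
    ((W.mu1.map (FreeGroup.lift fun e => κ.val (W.ep e))).twist fun x => κ.val (W.tr x)) ?_ q
  intro i x y q hq
  rw [PathFun.twist_val, PathFun.map_val, W.mu1_small i q hq]
  rcases i with _ | e
  · have hev : ∀ x ∈ W.O0, κ.val (W.H1.evalAt x) = κ.val (W.tr x) := by
      intro x hx
      rcases W.cases1 x with ⟨v, rfl⟩ | ⟨e, s, hs, rfl⟩
      · exact κ.congr _ _ fun u => (W.h1_vx u v).trans (W.tr_vx v u).symm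
      · obtain ⟨f, hf, hf1, hf2⟩ := W.exists_edge_potential κ e
        have h2 := (W.ed1_mem_O0 e).1 hx
        rw [hf _ (fun u => (1 + u) * s) (by fun_prop) fun u => W.h1_ed u e s,
          hf _ (fun u => (1 - u) * s + u * sg s) (by fun_prop) fun u => W.tr_ed e hs u]
        by_cases h : 0 < s
        · rw [abs_of_pos h] at h2
          simp only [sg, if_pos h]
          rw [hf1 ((1 + ((1 : I) : ℝ)) * s) (by simp; linarith)]
          simp
        · rw [abs_of_nonpos (not_lt.1 h)] at h2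
          simp only [sg, if_neg h]
          rw [hf2 ((1 + ((1 : I) : ℝ)) * s) (by simp; linarith)]
          simp
    have hv : ∀ x ∈ W.O0, ∃ v, W.h1 1 x = W.vx1 v := by
      intro x hx
      rcases W.cases1 x with ⟨v, rfl⟩ | ⟨e, s, hs, rfl⟩
      · exact ⟨v, W.h1_vx 1 v⟩
      · have h2 := (W.ed1_mem_O0 e).1 hx
        rw [h1_ed]
        rcases lt_abs.1 h2 with h | h
        · exact ⟨_, W.ed1_ge e (by simp; linarith)⟩
        · exact ⟨_, W.ed1_le e (by simp; linarith)⟩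
    have h := κ.val_evalAt W.H1 q
    have hc : κ.val (q.map (W.continuous_h1.comp (Continuous.prodMk_right 1))) = 1 := by
      refine κ.val_const _ fun u => ?_
      have := W.const_of_vertices (fun u => W.h1 1 (q u))
        (W.continuous_h1.comp (continuous_const.prodMk q.continuous)) (fun u => hv _ (hq u)) u
      simpa using this
    rw [hev x (q.source ▸ hq 0), hev y (q.target ▸ hq 1)] at h
    erw [hc] at h
    simpa [t1] using h
  · obtain ⟨f, hf, hf1, hf2⟩ := W.exists_edge_potential κ e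
    have hγ : Continuous fun u => W.cs (q u) :=
      (W.continuousOn_cs e).comp_continuous q.continuous hq
    have hq' : ∀ u, q u = W.ed1 e (W.cs (q u)) := by
      intro u
      obtain ⟨s, hs, h⟩ := hq u
      rw [← h, W.cs_ed e hs]
    have hy : κ.val (W.ep e) = f (-1) * (f 1)⁻¹ := by
      rw [hf (W.ep e) (fun u => 2 * u - 1) (by fun_prop) fun u => rfl]
      norm_num
    have key : ∀ z ∈ W.Oe e, κ.val (W.tr z) *
        FreeGroup.lift (fun e => κ.val (W.ep e)) (W.t1 (some e) z) = f (W.cs z) * (f (-1))⁻¹ := by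
      rintro _ ⟨s, hs, rfl⟩
      rw [hf _ (fun u => (1 - u) * s + u * sg s) (by fun_prop) fun u => W.tr_ed e hs u]
      by_cases h : 0 < s
      · simp [t1, sg, W.cs_ed e hs, h, hy]
      · simp [t1, sg, W.cs_ed e hs, h]
    rw [hf q _ hγ hq', q.source, q.target, map_mul, map_inv, ← mul_assoc,
      key x (q.source ▸ hq 0), mul_assoc, ← mul_inv_rev, key y (q.target ▸ hq 1)]
    group

end W2

end Crest.Agent.Lib.CWComb
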