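import Crest.Agent.Lib.CWComb.W2

/-! Every Hausdorff CW complex (Mathlib's classical notion, on the whole space) without cells of
dimension greater than two carries `W2` data.

Recipe. `V, Ed, Fc := cell univ 0, 1, 2`. `vx v := map 0 v ![]` (`closedCell_zero_eq_singleton`).
`ed e s := map 1 e (fun _ => max (-1) (min 1 s))` (continuous: `continuousOn` on the closed ball
composed with a continuous map into the closed ball); `src, tgt` from
`CWComplex.exists_cellFrontier_one_eq` / `cellFrontier_subset_finite_openCell` (a point of the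
frontier of a 1-cell lies in an open 0-cell). For 2-cells pick a homeomorphism
`F : ℂ ≃ₜ (Fin 2 → ℝ)` with `F '' ball 0 1 = ball 0 1`, `F '' closedBall 0 1 = closedBall 0 1`,
`F '' sphere 0 1 = sphere 0 1` (`exists_homeomorph_image_eq` / `gaugeRescaleHomeomorph` in `ℂ` for
the round ball and the preimage of the sup-norm ball under a linear equivalence `ℂ ≃L[ℝ] (Fin 2 → ℝ)`),
`fc j z := map 2 j (F (z / max 1 ‖z‖))`. `cover` from `iUnion_openCell_eq_complex`, injectivity and
disjointness from `PartialEquiv.injOn`, `source_eq`, `disjoint_openCell_of_ne`. `closed2` from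
`CWComplex.closed` (`A ∩ closedCell` is the image of a compact set), `closed1` from
`CWComplex.isClosed_of_disjoint_openCell_or_isClosed_inter_closedCell`. -/

set_option autoImplicit false

open Set Metric

namespace Crest.Agent.Lib.CWComb

open Topology Topology.CWComplex

/-- A homeomorphism onto `Fin n → ℝ` that preserves the open and the closed unit ball. -/
structure OfCWPar (Y : Type) [NormedAddCommGroup Y] (n : ℕ) where
  F : Y ≃ₜ (Fin n → ℝ)
  lt : ∀ z, ‖F z‖ < 1 ↔ ‖z‖ < 1
  le : ∀ z, ‖F z‖ ≤ 1 ↔ ‖z‖ ≤ 1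

/-- The parametrisation of the one-cells. -/
noncomputable def ofCWPar1 : OfCWPar ℝ 1 where
  F := (Homeomorph.funUnique (Fin 1) ℝ).symm
  lt z := by
    have : ((Homeomorph.funUnique (Fin 1) ℝ).symm z) = fun _ => z := by
      funext i; simp [Homeomorph.funUnique, Subsingleton.elim i default]
    rw [this, pi_norm_const]
  le z := by
    have : ((Homeomorph.funUnique (Fin 1) ℝ).symm z) = fun _ => z := by
      funext i; simp [Homeomorph.funUnique, Subsingleton.elim i default]
    rw [this, pi_norm_const]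

theorem ofCW_nonempty_par2 : Nonempty (OfCWPar ℂ 2) := by
  let L : ℂ ≃L[ℝ] (Fin 2 → ℝ) := Complex.basisOneI.equivFunL
  have hi : interior (L '' ball (0 : ℂ) 1) = L '' ball (0 : ℂ) 1 :=
    (L.toHomeomorph.isOpenMap _ isOpen_ball).interior_eq
  have hc : closure (L '' ball (0 : ℂ) 1) = L '' closedBall (0 : ℂ) 1 := by
    rw [← closure_ball (0 : ℂ) one_ne_zero]
    exact (L.toHomeomorph.image_closure _).symm
  obtain ⟨h, h1, h2, -⟩ := exists_homeomorph_image_interior_closure_frontier_eq_unitBall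
    (s := L '' ball (0 : ℂ) 1) ((convex_ball (0 : ℂ) 1).linear_image L.toLinearMap)
    (by rw [hi]; exact (nonempty_ball.2 one_pos).image _)
    ((L : ℂ →L[ℝ] (Fin 2 → ℝ)).lipschitz.isBounded_image isBounded_ball)
  rw [hi] at h1
  rw [hc] at h2
  refine ⟨⟨L.toHomeomorph.trans h, fun z => ?_, fun z => ?_⟩⟩
  · rw [← mem_ball_zero_iff, ← mem_ball_zero_iff, ← h1]
    show h (L z) ∈ _ ↔ _
    rw [h.injective.mem_set_image, L.injective.mem_set_image]
  · rw [← mem_closedBall_zero_iff, ← mem_closedBall_zero_iff, ← h2]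
    show h (L z) ∈ _ ↔ _
    rw [h.injective.mem_set_image, L.injective.mem_set_image]

section
variable {Y : Type} [NormedAddCommGroup Y] [NormedSpace ℝ Y]

/-- Radial retraction onto the closed unit ball. -/
noncomputable def ofCWClamp (z : Y) : Y := (max 1 ‖z‖)⁻¹ • z

theorem ofCWClamp_cont : Continuous (ofCWClamp : Y → Y) := by
  refine Continuous.smul (Continuous.inv₀ (continuous_const.max continuous_norm) ?_) continuous_id
  intro z
  exact (lt_of_lt_of_le one_pos (le_max_left _ _)).ne'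

theorem ofCWClamp_of_le {z : Y} (h : ‖z‖ ≤ 1) : ofCWClamp z = z := by
  rw [ofCWClamp, max_eq_left h, inv_one, one_smul]

theorem ofCWClamp_of_ge {z : Y} (h : 1 ≤ ‖z‖) : ofCWClamp z = ‖z‖⁻¹ • z := by
  rw [ofCWClamp, max_eq_right h]

theorem ofCWClamp_norm_of_ge {z : Y} (h : 1 ≤ ‖z‖) : ‖ofCWClamp z‖ = 1 := by
  rw [ofCWClamp_of_ge h, norm_smul, norm_inv, norm_norm,
    inv_mul_cancel₀ (lt_of_lt_of_le one_pos h).ne']

theorem ofCWClamp_norm_le (z : Y) : ‖ofCWClamp z‖ ≤ 1 := by
  rcases le_total ‖z‖ 1 with h | h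
  · rw [ofCWClamp_of_le h]; exact h
  · exact (ofCWClamp_norm_of_ge h).le

variable {X : Type} [TopologicalSpace X] [CWComplex (univ : Set X)] {n : ℕ}

/-- The clamped characteristic map. -/
noncomputable def OfCWPar.g (P : OfCWPar Y n) (j : cell (univ : Set X) n) : C(Y, X) where
  toFun z := map n j (P.F (ofCWClamp z))
  continuous_toFun :=
    (continuousOn n j).comp_continuous (P.F.continuous.comp ofCWClamp_cont)
      (fun z => mem_closedBall_zero_iff.2 ((P.le _).2 (ofCWClamp_norm_le z)))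

theorem OfCWPar.g_apply (P : OfCWPar Y n) (j : cell (univ : Set X) n) (z : Y) :
    P.g j z = map n j (P.F (ofCWClamp z)) := rfl

theorem OfCWPar.g_mem_open (P : OfCWPar Y n) (j : cell (univ : Set X) n) {z : Y} (h : ‖z‖ < 1) :
    P.g j z ∈ openCell n j := by
  rw [P.g_apply, ofCWClamp_of_le h.le]
  exact mem_image_of_mem _ (mem_ball_zero_iff.2 ((P.lt _).2 h))

theorem OfCWPar.exists_of_mem_open (P : OfCWPar Y n) (j : cell (univ : Set X) n) {x : X}
    (h : x ∈ openCell n j) : ∃ z, ‖z‖ < 1 ∧ x = P.g j z := by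
  obtain ⟨y, hy, rfl⟩ := h
  have : ‖P.F.symm y‖ < 1 := by
    rw [← P.lt, Homeomorph.apply_symm_apply]; exact mem_ball_zero_iff.1 hy
  exact ⟨P.F.symm y, this, by rw [P.g_apply, ofCWClamp_of_le this.le, Homeomorph.apply_symm_apply]⟩

theorem OfCWPar.g_mem_frontier (P : OfCWPar Y n) (j : cell (univ : Set X) n) {z : Y}
    (h : 1 ≤ ‖z‖) : ∃ m < n, ∃ i : cell (univ : Set X) m, P.g j z ∈ openCell m i := by
  have h1 := ofCWClamp_norm_of_ge h
  have h2 : P.g j z ∈ cellFrontier n j := by
    refine mem_image_of_mem _ (mem_sphere_zero_iff_norm.2 (le_antisymm ((P.le _).2 h1.le) ?_))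
    by_contra hlt
    exact absurd ((P.lt _).1 (not_le.1 hlt)) (by rw [h1]; exact lt_irrefl _)
  obtain ⟨I, hI⟩ := cellFrontier_subset_finite_openCell n j
  have := hI h2
  simp only [mem_iUnion] at this
  obtain ⟨m, hm, i, -, hi⟩ := this
  exact ⟨m, hm, i, hi⟩

theorem OfCWPar.g_ge (P : OfCWPar Y n) (j : cell (univ : Set X) n) {z : Y} (h : 1 ≤ ‖z‖) :
    P.g j z = P.g j (‖z‖⁻¹ • z) := by
  rw [P.g_apply, P.g_apply, ← ofCWClamp_of_ge h, ofCWClamp_of_le (ofCWClamp_norm_le z)]

theorem OfCWPar.g_inj (P : OfCWPar Y n) (j j' : cell (univ : Set X) n) {z z' : Y} (h : ‖z‖ < 1)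
    (h' : ‖z'‖ < 1) (e : P.g j z = P.g j' z') : j = j' ∧ z = z' := by
  have e1 : j = j' := by
    have := eq_of_not_disjoint_openCell
      (not_disjoint_iff.2 ⟨_, P.g_mem_open j h, e ▸ P.g_mem_open j' h'⟩)
    exact eq_of_heq (Sigma.mk.inj_iff.1 this).2
  subst e1
  refine ⟨rfl, P.F.injective ?_⟩
  rw [P.g_apply, P.g_apply, ofCWClamp_of_le h.le, ofCWClamp_of_le h'.le] at e
  refine (map n j).injOn ?_ ?_ e
  · rw [source_eq]; exact mem_ball_zero_iff.2 ((P.lt _).2 h)
  · rw [source_eq]; exact mem_ball_zero_iff.2 ((P.lt _).2 h')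

theorem OfCWPar.isClosed_inter [T2Space X] [ProperSpace Y] (P : OfCWPar Y n)
    (j : cell (univ : Set X) n) {A : Set X} (h : IsClosed (P.g j ⁻¹' A)) :
    IsClosed (A ∩ closedCell n j) := by
  have e : A ∩ closedCell n j = P.g j '' (closedBall 0 1 ∩ P.g j ⁻¹' A) := by
    ext x
    constructor
    · rintro ⟨hx, y, hy, rfl⟩
      have h1 : ‖P.F.symm y‖ ≤ 1 := by
        rw [← P.le, Homeomorph.apply_symm_apply]; exact mem_closedBall_zero_iff.1 hy
      have h2 : P.g j (P.F.symm y) = map n j y := by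
        rw [P.g_apply, ofCWClamp_of_le h1, Homeomorph.apply_symm_apply]
      exact ⟨P.F.symm y, ⟨mem_closedBall_zero_iff.2 h1, by rw [mem_preimage, h2]; exact hx⟩, h2⟩
    · rintro ⟨z, ⟨-, hz⟩, rfl⟩
      exact ⟨hz, mem_image_of_mem _
        (mem_closedBall_zero_iff.2 ((P.le _).2 (ofCWClamp_norm_le z)))⟩
  rw [e]
  exact (((isCompact_closedBall _ _).inter_right h).image (P.g j).continuous).isClosed

theorem ofCW_ne {m : ℕ} (hmn : m ≠ n) {i : cell (univ : Set X) m} {j : cell (univ : Set X) n}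
    {x y : X} (hx : x ∈ openCell m i) (hy : y ∈ openCell n j) : x ≠ y := by
  rintro rfl
  exact hmn (Sigma.mk.inj_iff.1 (eq_of_not_disjoint_openCell (not_disjoint_iff.2 ⟨_, hx, hy⟩))).1

theorem ofCW_vx_mem (v : cell (univ : Set X) 0) : map 0 v ![] ∈ openCell 0 v := by
  rw [openCell_zero_eq_singleton]; rfl

theorem ofCW_eq_vx {v : cell (univ : Set X) 0} {x : X} (h : x ∈ openCell 0 v) :
    x = map 0 v ![] := by
  rwa [openCell_zero_eq_singleton] at h

theorem ofCW_end (e : cell (univ : Set X) 1) {s : ℝ} (hs : 1 ≤ ‖s‖) :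
    ∃ v : cell (univ : Set X) 0, ofCWPar1.g e s = map 0 v ![] := by
  obtain ⟨m, hm, i, hi⟩ := ofCWPar1.g_mem_frontier e hs
  obtain rfl : m = 0 := by omega
  exact ⟨i, ofCW_eq_vx hi⟩

end

theorem nonempty_W2 (X : Type) [TopologicalSpace X] [T2Space X]
    [Topology.CWComplex (Set.univ : Set X)]
    (h : ∀ n : ℕ, 2 < n → IsEmpty (Topology.RelCWComplex.cell (Set.univ : Set X) n)) :
    Nonempty (W2 X) := by
  obtain ⟨P⟩ := ofCW_nonempty_par2
  choose src hsrc using fun e : cell (univ : Set X) 1 => ofCW_end e (s := -1) (by simp)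
  choose tgt htgt using fun e : cell (univ : Set X) 1 => ofCW_end e (s := 1) (by simp)
  have low : ∀ (x : X) (m : ℕ), m < 2 → ∀ i : cell (univ : Set X) m, x ∈ openCell m i →
      (∃ v : cell (univ : Set X) 0, x = map 0 v ![]) ∨
        ∃ (e : cell (univ : Set X) 1) (s : ℝ), |s| < 1 ∧ x = ofCWPar1.g e s := by
    intro x m hm i hi
    obtain rfl | rfl : m = 0 ∨ m = 1 := by omega
    · exact Or.inl ⟨i, ofCW_eq_vx hi⟩
    · obtain ⟨s, hs, e⟩ := ofCWPar1.exists_of_mem_open i hi
      exact Or.inr ⟨i, s, hs, e⟩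
  refine ⟨{
    V := cell (univ : Set X) 0
    Ed := cell (univ : Set X) 1
    Fc := cell (univ : Set X) 2
    vx := fun v => map 0 v ![]
    ed := fun e => ofCWPar1.g e
    fc := fun j => P.g j
    src := src
    tgt := tgt
    ed_le := ?_
    ed_ge := ?_
    fc_ge := ?_
    fc_mem := ?_
    cover := ?_
    vx_inj := injective_map_zero _
    ed_inj := fun e e' s s' hs hs' he => ofCWPar1.g_inj e e' hs hs' he
    fc_inj := fun j j' z z' hz hz' he => P.g_inj j j' hz hz' he
    vx_ne_ed := fun v e s hs => ofCW_ne (by norm_num) (ofCW_vx_mem v) (ofCWPar1.g_mem_open e hs)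
    vx_ne_fc := fun v j z hz => ofCW_ne (by norm_num) (ofCW_vx_mem v) (P.g_mem_open j hz)
    ed_ne_fc := fun e s j z hs hz =>
      ofCW_ne (by norm_num) (ofCWPar1.g_mem_open e hs) (P.g_mem_open j hz)
    closed2 := ?_
    closed1 := ?_ }⟩
  · intro e s hs
    have h1 : ‖s‖ = -s := by rw [Real.norm_eq_abs, abs_of_neg (by linarith)]
    have h2 : s ≠ 0 := by linarith [hs] |> fun (h : s < 0) => h.ne
    rw [ofCWPar1.g_ge e (by rw [h1]; linarith), ← hsrc, h1, smul_eq_mul]
    congr 1
    field_simp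
  · intro e s hs
    have h1 : ‖s‖ = s := by rw [Real.norm_eq_abs, abs_of_pos (by linarith)]
    have h2 : s ≠ 0 := by linarith [hs] |> fun (h : 0 < s) => h.ne'
    rw [ofCWPar1.g_ge e (by rw [h1]; linarith), ← htgt, h1, smul_eq_mul, inv_mul_cancel₀ h2]
  · intro j z hz
    rw [P.g_ge j hz, Complex.real_smul, Complex.ofReal_inv, mul_comm, div_eq_mul_inv]
  · intro j z hz
    obtain ⟨m, hm, i, hi⟩ := P.g_mem_frontier j hz
    exact low _ m hm i hi
  · intro x
    have hx : x ∈ ⋃ (n : ℕ) (j : cell (univ : Set X) n), openCell n j := by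
      rw [iUnion_openCell_eq_complex]; trivial
    simp only [mem_iUnion] at hx
    obtain ⟨m, i, hi⟩ := hx
    rcases lt_trichotomy m 2 with hm | rfl | hm
    · rcases low x m hm i hi with h1 | h1
      · exact Or.inl h1
      · exact Or.inr (Or.inl h1)
    · obtain ⟨z, hz, e⟩ := P.exists_of_mem_open i hi
      exact Or.inr (Or.inr ⟨i, z, hz, e⟩)
    · exact (h m hm).elim i
  · intro A h1 h2
    refine isClosed_of_disjoint_openCell_or_isClosed_inter_closedCell (subset_univ A) ?_
    intro m hm i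
    rcases lt_trichotomy m 2 with hm2 | rfl | hm2
    · obtain rfl : m = 1 := by omega
      exact Or.inr (ofCWPar1.isClosed_inter i (h1 i))
    · exact Or.inr (P.isClosed_inter i (h2 i))
    · exact (h m hm2).elim i
  · intro A h0 h1
    refine isClosed_of_disjoint_openCell_or_isClosed_inter_closedCell (subset_univ A) ?_
    intro m hm i
    rcases lt_or_ge m 2 with hm2 | hm2
    · obtain rfl : m = 1 := by omega
      exact Or.inr (ofCWPar1.isClosed_inter i (h1 i))
    · refine Or.inl (disjoint_left.2 fun x hx hxi => ?_)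
      rcases h0 x hx with ⟨v, hv⟩ | ⟨e, s, hs, he⟩
      · exact ofCW_ne (by omega) hxi (ofCW_vx_mem v) hv
      · exact ofCW_ne (by omega) hxi (ofCWPar1.g_mem_open e hs) he

end Crest.Agent.Lib.CWComb
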