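import Crest.Agent.Lib.CWComb.Dual
import Crest.Agent.Lib.CWComb.OfCW
import Crest.Prelude.Def_ClassifyingComplex

/-! A group with a two-dimensional classifying complex has an aspherical presentation. -/

set_option autoImplicit false

open Set unitInterval Topology

namespace Crest.Agent.Lib.CWComb

theorem W2.exists_isAsphPres {X E : Type} [TopologicalSpace X] [TopologicalSpace E] [T2Space X]
    [ContractibleSpace E] (W : W2 X) {p : E → X} (cov : IsCoveringMap p) {G : Type} [Group G]
    (L : Lab p G) : ∃ (R : Type) (rel : R → FreeGroup W.Ed), IsAsphPres (W.gen L) rel := by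
  classical
  obtain ⟨e₀⟩ : Nonempty E := inferInstance
  let v₀ : W.V := W.vt (W.rr (p e₀))
  let ν := (L.restrict W.X1).ν
  have hpath : ∀ (x y : W.X1) (g : G), ∃ q : Path x y, ν.val q = g := by
    intro x y g
    obtain ⟨q, hq⟩ := L.exists_path cov.continuous (x : X) (y : X) g
    obtain ⟨q', hq'⟩ := W.exists_path_X1 L.ν q
    exact ⟨q', hq'.trans hq⟩
  have hT : ∀ v, ∃ q : Path (W.vx1 v₀) (W.vx1 v), ν.val q = 1 ∧ (v = v₀ → W.mu1.val q = 1) := by
    intro v
    by_cases h : v = v₀
    · subst h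
      exact ⟨Path.refl _, ν.val_refl _, fun _ => W.mu1.val_refl _⟩
    · obtain ⟨q, hq⟩ := hpath (W.vx1 v₀) (W.vx1 v) 1
      exact ⟨q, hq, fun h' => (h h').elim⟩
  choose T hT1 hT2 using hT
  let rel : W.Fc ⊕ {v : W.V // v ≠ v₀} → FreeGroup W.Ed :=
    Sum.elim W.rel fun v => W.mu1.val (T v)
  let M := Subgroup.normalClosure (range rel)
  have hTM : ∀ v, W.mu1.val (T v) ∈ M := by
    intro v
    by_cases h : v = v₀
    · rw [hT2 v h]; exact M.one_mem
    · exact Subgroup.subset_normalClosure ⟨.inr ⟨v, h⟩, rfl⟩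
  have hNM : W.N ≤ M := Subgroup.normalClosure_mono (by rintro _ ⟨j, rfl⟩; exact ⟨.inl j, rfl⟩)
  refine ⟨_, rel, fun g => ?_, le_antisymm (fun w hw => ?_) ?_, ?_⟩
  · obtain ⟨q, hq⟩ := hpath (W.vx1 v₀) (W.vx1 v₀) g
    exact ⟨W.mu1.val q, (W.lift_gen_vertex L q).trans hq⟩
  · have key : ∀ w : FreeGroup W.Ed, ∃ q : Path (W.vx1 v₀) (W.vx1 v₀),
        ν.val q = FreeGroup.lift (W.gen L) w ∧
          (QuotientGroup.mk (W.mu1.val q) : FreeGroup W.Ed ⧸ M) = QuotientGroup.mk w := by
      intro w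
      induction w using FreeGroup.induction_on with
      | C1 => exact ⟨Path.refl _, by rw [ν.val_refl, map_one], by rw [W.mu1.val_refl]⟩
      | of e =>
        refine ⟨(T _).trans ((W.ep e).trans (T _).symm), ?_, ?_⟩
        · rw [ν.val_trans, ν.val_trans, ν.val_symm, hT1, hT1, FreeGroup.lift_apply_of]
          simp [ν, W2.gen]
        · rw [W.mu1.val_trans, W.mu1.val_trans, W.mu1.val_symm, W.mu1_ep, QuotientGroup.mk_mul,
            QuotientGroup.mk_mul, QuotientGroup.mk_inv, (QuotientGroup.eq_one_iff _).2 (hTM _),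
            (QuotientGroup.eq_one_iff _).2 (hTM _)]
          simp
      | inv_of e ih =>
        obtain ⟨q, h1, h2⟩ := ih
        exact ⟨q.symm, by rw [ν.val_symm, h1, map_inv],
          by rw [W.mu1.val_symm, QuotientGroup.mk_inv, h2, QuotientGroup.mk_inv]⟩
      | mul u v ihu ihv =>
        obtain ⟨q, h1, h2⟩ := ihu
        obtain ⟨q', h1', h2'⟩ := ihv
        exact ⟨q.trans q', by rw [ν.val_trans, h1, h1', map_mul],
          by rw [W.mu1.val_trans, QuotientGroup.mk_mul, h2, h2', QuotientGroup.mk_mul]⟩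
    obtain ⟨q, h1, h2⟩ := key w
    obtain ⟨μ, hμ⟩ := W.exists_mu2
    rw [MonoidHom.mem_ker.1 hw] at h1
    have h3 := μ.val_hom (L.homotopic_of_val_eq cov (q.map continuous_subtype_val) (Path.refl _)
      (h1.trans (L.ν.val_refl _).symm))
    rw [hμ, μ.val_refl, QuotientGroup.eq_one_iff] at h3
    rw [(QuotientGroup.eq_one_iff _).2 (hNM h3), eq_comm, QuotientGroup.eq_one_iff] at h2
    exact h2
  · refine Subgroup.normalClosure_le_normal ?_
    rintro _ ⟨j | v, rfl⟩
    · exact W.lift_gen_rel L j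
    · exact (W.lift_gen_vertex L _).trans (hT1 v)
  · rintro ⟨g₀, j₀ | v₁⟩
    · obtain ⟨n, hn1, hn2⟩ := W.exists_face_cochain cov L (g₀, j₀)
      obtain ⟨m, hm1, hm2⟩ := W.exists_vertex_cochain L
        fun g v => (hol (W.gen L) n g (W.mu1.val (T v)))⁻¹
      refine ⟨fun g e => n g e * m g e, ?_, ?_⟩
      · rw [hol_mul_label]
        change hol _ n g₀ (W.rel j₀) * hol _ m g₀ (W.rel j₀) = _
        rw [hn1, hm1, mul_one]
      · rintro ⟨g, j | v⟩ hc
        · rw [hol_mul_label]
          change hol _ n g (W.rel j) * hol _ m g (W.rel j) = _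
          rw [hn2 (g, j) (fun h => hc (by cases h; rfl)), hm1, mul_one]
        · rw [hol_mul_label]
          change hol _ n g (W.mu1.val (T v)) * hol _ m g (W.mu1.val (T v)) = _
          rw [hm2, hT2 v₀ rfl, hT1]
          simp
    · obtain ⟨m, hm1, hm2⟩ := W.exists_vertex_cochain L
        fun g v => if g = g₀ ∧ v = v₁ then Multiplicative.ofAdd (1 : ℤ) else 1
      refine ⟨m, ?_, ?_⟩
      · change hol _ m g₀ (W.mu1.val (T v₁)) = _
        rw [hm2, hT1]
        simp [v₁.2.symm]
      · rintro ⟨g, j | v⟩ hc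
        · exact hm1 g j
        · change hol _ m g (W.mu1.val (T v)) = _
          rw [hm2, hT1, mul_one, if_neg (fun h => v₁.2 h.2.symm), if_neg, inv_one, mul_one]
          rintro ⟨rfl, h⟩
          exact hc (by rw [Subtype.ext h])

/-- Tietze move: adjoin any family of elements to the generators -/
theorem IsAsphPres.adjoin {S R G T : Type} [Group G] {π : S → G} {rel : R → FreeGroup S}
    (h : IsAsphPres π rel) (τ : T → G) :
    ∃ rel' : T ⊕ R → FreeGroup (T ⊕ S), IsAsphPres (Sum.elim τ π) rel' := by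
  classical
  choose w hw using fun t => h.surj (τ t)
  let ι : FreeGroup S →* FreeGroup (T ⊕ S) := FreeGroup.map Sum.inr
  have hι : ∀ u, FreeGroup.lift (Sum.elim τ π) (ι u) = FreeGroup.lift π u := by
    intro u
    have : (FreeGroup.lift (Sum.elim τ π)).comp ι = FreeGroup.lift π := by ext s; simp [ι]
    exact DFunLike.congr_fun this u
  let rel' : T ⊕ R → FreeGroup (T ⊕ S) :=
    Sum.elim (fun t => FreeGroup.of (.inl t) * (ι (w t))⁻¹) fun r => ι (rel r)
  let M := Subgroup.normalClosure (range rel')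
  have hhol : ∀ (n : G → T ⊕ S → Multiplicative ℤ) g u,
      hol (Sum.elim τ π) n g (ι u) = hol π (fun g s => n g (.inr s)) g u :=
    fun n g u => hol_map Sum.inr _ n g u
  have hnew : ∀ (n : G → T ⊕ S → Multiplicative ℤ) g t,
      hol (Sum.elim τ π) n g (rel' (.inl t)) =
        n g (.inl t) * (hol π (fun g s => n g (.inr s)) g (w t))⁻¹ := by
    intro n g t
    change hol _ n g (FreeGroup.of (.inl t) * (ι (w t))⁻¹) = _
    rw [hol_mul, hol_inv, hol_of, hι, hw, hhol]
    simp
  refine ⟨rel', fun g => ?_, le_antisymm (fun u hu => ?_) ?_, ?_⟩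
  · obtain ⟨u, hu⟩ := h.surj g
    exact ⟨ι u, (hι u).trans hu⟩
  · let ρ : FreeGroup (T ⊕ S) →* FreeGroup S := FreeGroup.lift (Sum.elim w FreeGroup.of)
    have h1 : (FreeGroup.lift π).comp ρ = FreeGroup.lift (Sum.elim τ π) := by
      ext (t | s) <;> simp [ρ, hw]
    have h2 : ((QuotientGroup.mk' M).comp ι).comp ρ = QuotientGroup.mk' M := by
      ext (t | s)
      · simp only [MonoidHom.comp_apply, ρ, FreeGroup.lift_apply_of, Sum.elim_inl,
          QuotientGroup.mk'_apply]
        rw [eq_comm, ← mul_inv_eq_one, ← QuotientGroup.mk_inv, ← QuotientGroup.mk_mul,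
          QuotientGroup.eq_one_iff]
        exact Subgroup.subset_normalClosure ⟨.inl t, rfl⟩
      · simp [ρ, ι]
    have h3 : ρ u ∈ Subgroup.normalClosure (range rel) := by
      rw [← h.ker_eq, MonoidHom.mem_ker, ← MonoidHom.comp_apply, h1]
      exact hu
    have h4 : Subgroup.normalClosure (range rel) ≤ ((QuotientGroup.mk' M).comp ι).ker := by
      refine Subgroup.normalClosure_le_normal ?_
      rintro _ ⟨r, rfl⟩
      exact (QuotientGroup.eq_one_iff _).2 (Subgroup.subset_normalClosure ⟨.inr r, rfl⟩)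
    have h5 := h4 h3
    rw [MonoidHom.mem_ker, ← MonoidHom.comp_apply, h2] at h5
    exact (QuotientGroup.eq_one_iff _).1 h5
  · refine Subgroup.normalClosure_le_normal ?_
    rintro _ ⟨t | r, rfl⟩
    · change FreeGroup.lift (Sum.elim τ π) (FreeGroup.of (.inl t) * (ι (w t))⁻¹) = 1
      rw [map_mul, map_inv, hι, hw]
      simp
    · change FreeGroup.lift (Sum.elim τ π) (ι (rel r)) = 1
      rw [hι, ← MonoidHom.mem_ker, h.ker_eq]
      exact Subgroup.subset_normalClosure ⟨r, rfl⟩
  · rintro ⟨g₀, t₀ | r₀⟩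
    · refine ⟨fun g => Sum.elim (fun t => if g = g₀ ∧ t = t₀ then Multiplicative.ofAdd 1 else 1)
        fun _ => 1, ?_, ?_⟩
      · rw [hnew]
        simp [hol_one_label]
      · rintro ⟨g, t | r⟩ hc
        · rw [hnew]
          simp only [Sum.elim_inl, Sum.elim_inr, hol_one_label, inv_one, mul_one]
          rw [if_neg]
          rintro ⟨rfl, rfl⟩
          exact hc rfl
        · change hol _ _ g (ι (rel r)) = 1
          rw [hhol]
          simp [hol_one_label]
    · obtain ⟨n, hn1, hn2⟩ := h.dual (g₀, r₀)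
      refine ⟨fun g => Sum.elim (fun t => hol π n g (w t)) (n g), ?_, ?_⟩
      · change hol _ _ g₀ (ι (rel r₀)) = _
        rw [hhol]
        exact hn1
      · rintro ⟨g, t | r⟩ hc
        · rw [hnew]
          simp
        · change hol _ _ g (ι (rel r)) = 1
          rw [hhol]
          exact hn2 (g, r) fun h => hc (by cases h; rfl)

/-- **Lemma P.** A group with a classifying complex of dimension at most two has an aspherical
presentation. -/
theorem exists_isAsphPres {G : Type} [Group G] (h : Crest.Topology.HasClassifyingComplex G 2) :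
    ∃ (S R : Type) (π : S → G) (rel : R → FreeGroup S), IsAsphPres π rel := by
  obtain ⟨X, _, _, _, hdim, ⟨E, _, p, _, cov, hs⟩, x₀, ⟨φ⟩⟩ := h
  obtain ⟨W⟩ := nonempty_W2 X hdim
  obtain ⟨L⟩ := nonempty_lab cov hs x₀ φ
  obtain ⟨R, rel, h⟩ := W.exists_isAsphPres cov L
  exact ⟨_, R, _, rel, h⟩

/-- the same with a prescribed family of elements among the generators -/
theorem exists_presentation {G : Type} [Group G] (h : Crest.Topology.HasClassifyingComplex G 2)
    {T : Type} (τ : T → G) :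
    ∃ (S R : Type) (π : S → G) (rel : R → FreeGroup (T ⊕ S)), IsAsphPres (Sum.elim τ π) rel := by
  obtain ⟨S, R, π, rel, h⟩ := exists_isAsphPres h
  obtain ⟨rel', h'⟩ := h.adjoin τ
  exact ⟨S, _, π, rel', h'⟩

/-- the coboundary is onto on finite sets of two-cells -/
theorem IsAsphPres.exists_cochain {S R G : Type} [Group G] {π : S → G} {rel : R → FreeGroup S}
    (h : IsAsphPres π rel) (Z : Finset (G × R)) (c : G × R → ℤ) :
    ∃ n : G → S → Multiplicative ℤ,
      (∀ z ∈ Z, hol π n z.1 (rel z.2) = Multiplicative.ofAdd (c z)) ∧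
        ∀ z, z ∉ Z → hol π n z.1 (rel z.2) = 1 := by
  classical
  induction Z using Finset.induction_on with
  | empty => exact ⟨fun _ _ => 1, by simp, fun z _ => hol_one_label _ _ _⟩
  | insert z₀ Z hz ih =>
    obtain ⟨n, hn1, hn2⟩ := ih
    obtain ⟨m, hm1, hm2⟩ := h.dual z₀
    have hp : ∀ g u, hol π (fun g s => m g s ^ c z₀) g u = hol π m g u ^ c z₀ := fun g u =>
      (map_hol (zpowGroupHom (c z₀)) π m g u).symm
    refine ⟨fun g s => n g s * m g s ^ c z₀, fun z hz' => ?_, fun z hz' => ?_⟩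
    · rw [hol_mul_label, hp]
      rcases Finset.mem_insert.1 hz' with rfl | hz''
      · rw [hn2 z hz, hm1, one_mul, ← ofAdd_zsmul, smul_eq_mul, mul_one]
      · rw [hn1 z hz'', hm2 z (fun h => hz (h ▸ hz'')), one_zpow, mul_one]
    · rw [Finset.mem_insert, not_or] at hz'
      rw [hol_mul_label, hp, hn2 z hz'.2, hm2 z hz'.1, one_zpow, mul_one]

end Crest.Agent.Lib.CWComb
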