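import Mathlib

/-! A convenient normal form for two-dimensional CW complexes: characteristic maps are defined on
the whole line / plane (clamped), two-cells are round discs in `ℂ`. -/

set_option autoImplicit false

open Set Metric

namespace Crest.Agent.Lib.CWComb

/-- Cell data of a CW complex of dimension at most two on the whole space `X`. -/
structure W2 (X : Type) [TopologicalSpace X] where
  V : Type
  Ed : Type
  Fc : Type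
  vx : V → X
  ed : Ed → C(ℝ, X)
  fc : Fc → C(ℂ, X)
  src : Ed → V
  tgt : Ed → V
  ed_le : ∀ e s, s ≤ -1 → ed e s = vx (src e)
  ed_ge : ∀ e s, 1 ≤ s → ed e s = vx (tgt e)
  fc_ge : ∀ j z, 1 ≤ ‖z‖ → fc j z = fc j (z / (‖z‖ : ℂ))
  fc_mem : ∀ j z, 1 ≤ ‖z‖ → (∃ v, fc j z = vx v) ∨ ∃ e s, |s| < 1 ∧ fc j z = ed e s
  cover : ∀ x, (∃ v, x = vx v) ∨ (∃ e s, |s| < 1 ∧ x = ed e s) ∨ ∃ j z, ‖z‖ < 1 ∧ x = fc j z
  vx_inj : Function.Injective vx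
  ed_inj : ∀ e e' s s', |s| < 1 → |s'| < 1 → ed e s = ed e' s' → e = e' ∧ s = s'
  fc_inj : ∀ j j' z z', ‖z‖ < 1 → ‖z'‖ < 1 → fc j z = fc j' z' → j = j' ∧ z = z'
  vx_ne_ed : ∀ v e s, |s| < 1 → vx v ≠ ed e s
  vx_ne_fc : ∀ v j z, ‖z‖ < 1 → vx v ≠ fc j z
  ed_ne_fc : ∀ e s j z, |s| < 1 → ‖z‖ < 1 → ed e s ≠ fc j z
  closed2 : ∀ A : Set X, (∀ e, IsClosed (ed e ⁻¹' A)) → (∀ j, IsClosed (fc j ⁻¹' A)) → IsClosed A
  closed1 : ∀ A : Set X, (∀ x ∈ A, (∃ v, x = vx v) ∨ ∃ e s, |s| < 1 ∧ x = ed e s) →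
    (∀ e, IsClosed (ed e ⁻¹' A)) → IsClosed A

end Crest.Agent.Lib.CWComb
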